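import Vale.Agent.P181.Kap2

/-!
# The image of the evaluation map: closure properties
-/

namespace Vale.Agent.P181

open MvPolynomial

/-- the degree of a monomial in the variables other than `x_0`. -/
def tw {n b : ℕ} (m : Mon (n+2) b) : ℕ := tl m.exp

/-- polynomials of degree `d` and of total weight `k`. -/
noncomputable def T (n b d k : ℕ) : Submodule ℂ (MvPolynomial (Mon (n+2) b) ℂ) :=
  homogeneousSubmodule (Mon (n+2) b) ℂ d ⊓ weightedHomogeneousSubmodule ℂ tw k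

theorem mem_T {n b d k : ℕ} (y : MvPolynomial (Mon (n+2) b) ℂ) :
    y ∈ T n b d k ↔ y.IsHomogeneous d ∧ IsWeightedHomogeneous tw y k := Iff.rfl

theorem T_mul {n b d k d' k' : ℕ} {y y' : MvPolynomial (Mon (n+2) b) ℂ} (hy : y ∈ T n b d k)
    (hy' : y' ∈ T n b d' k') : y * y' ∈ T n b (d + d') (k + k') :=
  ⟨hy.1.mul hy'.1, hy.2.mul hy'.2⟩

theorem T_X {n b : ℕ} (m : Mon (n+2) b) : X m ∈ T n b 1 (tw m) :=
  ⟨isHomogeneous_X ℂ m, isWeightedHomogeneous_X ℂ tw m⟩

theorem T_one {n b : ℕ} : (1 : MvPolynomial (Mon (n+2) b) ℂ) ∈ T n b 0 0 :=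
  ⟨isHomogeneous_one _ _, isWeightedHomogeneous_one _ _⟩

/-- the image under `ev` of the polynomials of degree `k` and weight `k`. -/
noncomputable def F (n b k : ℕ) : Submodule ℂ (Q n b) := (T n b k k).map (ev n b).toLinearMap

theorem mem_F {n b k : ℕ} (g : Q n b) : g ∈ F n b k ↔ ∃ y ∈ T n b k k, ev n b y = g := Iff.rfl

theorem F_one {n b : ℕ} : (1 : Q n b) ∈ F n b 0 := (mem_F _).mpr ⟨1, T_one, map_one _⟩

theorem F_mul {n b : ℕ} (k k' : ℕ) (g g' : Q n b) (hg : g ∈ F n b k) (hg' : g' ∈ F n b k') :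
    g * g' ∈ F n b (k + k') := by
  obtain ⟨y, hy, rfl⟩ := (mem_F _).mp hg
  obtain ⟨y', hy', rfl⟩ := (mem_F _).mp hg'
  exact (mem_F _).mpr ⟨y * y', T_mul hy hy', map_mul _ _ _⟩

theorem Mon.fact_ne_zero {n d : ℕ} (m : Mon n d) : (m.fact : ℂ) ≠ 0 := by
  unfold Mon.fact
  rw [Nat.cast_ne_zero]
  exact Finset.prod_ne_zero_iff.mpr (fun k _ => Nat.factorial_ne_zero _)

theorem esum_zpow (n b : ℕ) : esum (Mon.zpow n b) = 1 := by
  unfold esum
  rw [Finset.sum_eq_single (fun _ => 0)]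
  · have : cont (fun _ : Fin b => (0 : Fin (n+2))) = Mon.zpow n b := by
      apply Mon.ext'
      intro k
      rw [cont_exp]
      unfold Mon.zpow
      by_cases hk : k = 0
      · simp [hk]
      · simp [hk, Ne.symm hk]
    rw [if_pos this]
    unfold wmon sym
    simp
  · intro w _ hw
    rw [if_neg]
    intro h
    apply hw
    funext c
    by_contra hc
    have h1 : (cont w).exp (w c) = 0 := by
      rw [h]; unfold Mon.zpow; simp [hc]
    rw [cont_exp] at h1
    have := (Finset.sum_eq_zero_iff.mp h1) c (Finset.mem_univ c)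
    simp at this
  · simp

theorem evX_zpow (n b : ℕ) : evX (Mon.zpow n b) = C ((Mon.zpow n b).fact : ℂ) := by
  unfold evX
  rw [esum_zpow, smul_eq_C_mul, mul_one]

theorem tw_zpow (n b : ℕ) : tw (Mon.zpow n b) = 0 := by
  have := tl_exp (Mon.zpow n b)
  unfold tw
  have h2 : (Mon.zpow n b).exp 0 = b := by unfold Mon.zpow; simp
  omega

theorem tw_move_zero {n b : ℕ} (m : Mon (n+2) b) (j : Fin (n+2)) (hj : j ≠ 0) (h : 0 < m.exp 0) :
    tw (m.move j 0) = tw m + 1 := by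
  have h1 := tl_exp m
  have h2 := tl_exp (m.move j 0)
  rw [Mon.move_apply _ _ _ h, if_pos rfl, if_neg (Ne.symm hj)] at h2
  unfold tw
  omega

theorem mkDerivation_homogeneous {σ : Type*} (f : σ → MvPolynomial σ ℂ)
    (hf : ∀ x, (f x).IsHomogeneous 1) (y : MvPolynomial σ ℂ) (d : ℕ) (hy : y.IsHomogeneous d) :
    (mkDerivation ℂ f y).IsHomogeneous d :=
  mkDerivation_weighted 1 0 f hf y d hy

theorem Eul_mem_T {n b d k : ℕ} {y : MvPolynomial (Mon (n+2) b) ℂ} (hy : y ∈ T n b d k) :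
    Eul n b y ∈ T n b d k :=
  ⟨mkDerivation_homogeneous _ (fun m => isHomogeneous_X ℂ m) y d hy.1,
    mkDerivation_weighted tw 0 _ (fun m => isWeightedHomogeneous_X ℂ tw m) y k hy.2⟩

theorem E_zero_mem_T {n b d k : ℕ} (j : Fin (n+2)) (hj : j ≠ 0) {y : MvPolynomial (Mon (n+2) b) ℂ}
    (hy : y ∈ T n b d k) : E (n+2) b j 0 y ∈ T n b d (k + 1) := by
  constructor
  · apply mkDerivation_homogeneous _ _ y d hy.1
    intro m
    exact (homogeneousSubmodule _ _ 1).smul_mem _ (isHomogeneous_X ℂ _)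
  · apply mkDerivation_weighted tw 1 _ _ y k hy.2
    intro m
    by_cases h : m.exp 0 = 0
    · rw [h]
      simp only [Nat.cast_zero, zero_smul]
      exact isWeightedHomogeneous_zero _ _ _
    · have := isWeightedHomogeneous_X ℂ tw (m.move j 0)
      rw [tw_move_zero m j hj (Nat.pos_of_ne_zero h)] at this
      exact (weightedHomogeneousSubmodule ℂ tw _).smul_mem _ this

theorem ev_C {n b : ℕ} (r : ℂ) : ev n b (C r) = C r := by
  unfold ev; rw [aeval_C]; rfl

/-- the first power sums are in the image. -/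
theorem P1_eq {n b : ℕ} (j : Fin (n+2)) (hj : j ≠ 0) :
    P1 n b j = ev n b (C ((b : ℂ) / ((Mon.zpow n b).fact : ℂ)) * X ((Mon.zpow n b).move j 0)) := by
  have h := P1_mul_evX (Mon.zpow n b) j hj
  rw [evX_zpow] at h
  have hR : R n b j (C ((Mon.zpow n b).fact : ℂ)) = 0 := by
    rw [← algebraMap_eq]; exact Derivation.map_algebraMap _ _
  have h0 : (Mon.zpow n b).exp 0 = b := by unfold Mon.zpow; simp
  rw [hR, add_zero, h0] at h
  rw [map_mul, ev_C, ev_X]
  have hne := (Mon.zpow n b).fact_ne_zero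
  have h2 : P1 n b j = C (1 / ((Mon.zpow n b).fact : ℂ)) * (P1 n b j * C ((Mon.zpow n b).fact : ℂ)) := by
    rw [mul_comm (P1 n b j), ← mul_assoc, ← C_mul, one_div, inv_mul_cancel₀ hne, C_1, one_mul]
  rw [h2, h, smul_eq_C_mul, ← mul_assoc, ← C_mul]
  congr 2
  ring

theorem P1_mem_T {n b : ℕ} (j : Fin (n+2)) (hj : j ≠ 0) :
    C ((b : ℂ) / ((Mon.zpow n b).fact : ℂ)) * X ((Mon.zpow n b).move j 0) ∈ T n b 1 1 := by
  rw [← smul_eq_C_mul]
  by_cases hb : b = 0
  · subst hb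
    simp
  · apply Submodule.smul_mem
    have := T_X ((Mon.zpow n b).move j 0)
    have h0 : (Mon.zpow n b).exp 0 = b := by unfold Mon.zpow; simp
    rwa [tw_move_zero _ j hj (by rw [h0]; exact Nat.pos_of_ne_zero hb), tw_zpow] at this

theorem P1_mem_F {n b : ℕ} (j : Fin (n+2)) (hj : j ≠ 0) : P1 n b j ∈ F n b 1 :=
  (mem_F _).mpr ⟨_, P1_mem_T j hj, (P1_eq j hj).symm⟩

/-- the image is stable under the operators `R j`. -/
theorem F_R {n b k : ℕ} (j : Fin (n+2)) (hj : j ≠ 0) (g : Q n b) (hg : g ∈ F n b k) :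
    R n b j g ∈ F n b (k + 1) := by
  obtain ⟨y, hy, rfl⟩ := (mem_F _).mp hg
  have h := ev_E_zero j hj y
  have hne := (Mon.zpow n b).fact_ne_zero
  refine (mem_F _).mpr ⟨C ((b : ℂ) / ((Mon.zpow n b).fact : ℂ)) * X ((Mon.zpow n b).move j 0) * Eul n b y
    - C (1 / ((Mon.zpow n b).fact : ℂ)) * (X (Mon.zpow n b) * E (n+2) b j 0 y), ?_, ?_⟩
  · apply Submodule.sub_mem
    · have := T_mul (P1_mem_T (b := b) j hj) (Eul_mem_T hy)
      rwa [add_comm 1 k] at this
    · rw [← smul_eq_C_mul]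
      apply Submodule.smul_mem
      have := T_mul (T_X (Mon.zpow n b)) (E_zero_mem_T j hj hy)
      rwa [tw_zpow, zero_add, add_comm 1 k] at this
  · rw [map_sub, map_mul, ← P1_eq j hj, ← h, map_mul, map_mul, ev_C, ev_X,
      evX_zpow, ← mul_assoc, ← C_mul, one_div, inv_mul_cancel₀ hne, C_1, one_mul]
    ring

/-- raising the degree by powers of the variable `x_0 ^ b`. -/
theorem F_le {n b k : ℕ} (hk : k ≤ b) (g : Q n b) (hg : g ∈ F n b k) :
    ∃ y ∈ T n b b k, ev n b y = g := by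
  obtain ⟨y, hy, rfl⟩ := (mem_F _).mp hg
  have hne := (Mon.zpow n b).fact_ne_zero
  refine ⟨C ((1 / ((Mon.zpow n b).fact : ℂ)) ^ (b - k)) * (X (Mon.zpow n b) ^ (b - k) * y), ?_, ?_⟩
  · rw [← smul_eq_C_mul]
    apply Submodule.smul_mem
    have h1 : X (Mon.zpow n b) ^ (b - k) ∈ T n b (b - k) 0 := by
      constructor
      · have := (isHomogeneous_X ℂ (Mon.zpow n b)).pow (b - k)
        simpa using this
      · have := (isWeightedHomogeneous_X ℂ tw (Mon.zpow n b)).pow (b - k)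
        rw [tw_zpow] at this
        simpa using this
    have := T_mul h1 hy
    have e1 : b - k + k = b := by omega
    rwa [e1, zero_add] at this
  · rw [map_mul, map_mul, ev_C, map_pow (ev n b), ev_X, evX_zpow, ← mul_assoc, ← C_pow, ← C_mul,
      ← mul_pow,
      one_div, inv_mul_cancel₀ hne, one_pow, C_1, one_mul]

end Vale.Agent.P181
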