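import Vale.Agent.P181.Core1

/-!
# Power sums and monomial symmetric functions are in the image of the evaluation map
-/

namespace Vale.Agent.P181

open MvPolynomial

theorem tl_add {n : ℕ} (u u' : Fin (n+2) → ℕ) : tl (u + u') = tl u + tl u' := by
  unfold tl
  rw [← Finset.sum_add_distrib]
  apply Finset.sum_congr rfl
  intro k _
  split_ifs <;> simp

theorem tl_single {n : ℕ} (j : Fin (n+2)) (hj : j ≠ 0) : tl (Pi.single j 1 : Fin (n+2) → ℕ) = 1 := by
  unfold tl
  rw [Finset.sum_eq_single j]
  · simp [hj]
  · intro k _ hk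
    simp [hk]
  · simp

theorem mono_add {n b : ℕ} (c : Fin b) (u u' : Fin (n+2) → ℕ) :
    mono c (u + u') = mono c u * mono c u' := by
  unfold mono
  rw [← Finset.prod_mul_distrib]
  apply Finset.prod_congr rfl
  intro l _
  rw [Pi.add_apply, pow_add]

theorem mono_single {n b : ℕ} (c : Fin b) (j : Fin (n+2)) :
    mono c (Pi.single j 1 : Fin (n+2) → ℕ) = sym c j := by
  unfold mono
  rw [Finset.prod_eq_single j]
  · simp
  · intro l _ hl
    simp [hl]
  · simp

theorem mono_of_tl_zero {n b : ℕ} (c : Fin b) (u : Fin (n+2) → ℕ) (h : tl u = 0) :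
    mono c u = 1 := by
  unfold mono
  apply Finset.prod_eq_one
  intro l _
  by_cases hl : l = 0
  · unfold sym; simp [hl]
  · unfold tl at h
    have := (Finset.sum_eq_zero_iff.mp h) l (Finset.mem_univ l)
    rw [if_neg hl] at this
    rw [this, pow_zero]

theorem R_mono {n b : ℕ} (j : Fin (n+2)) (c : Fin b) (u : Fin (n+2) → ℕ) :
    R n b j (mono c u) = (tl u : ℂ) • (X (c, j) * mono c u) := by
  unfold mono tl
  rw [deriv_prod, Nat.cast_sum, Finset.sum_smul]
  apply Finset.sum_congr rfl
  intro l _
  rw [Derivation.leibniz_pow, R_sym]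
  by_cases hl : l = 0
  · simp [hl]
  · rw [if_neg hl, if_neg hl, ← Finset.mul_prod_erase _ _ (Finset.mem_univ l)]
    by_cases hu : u l = 0
    · simp [hu]
    · rw [← pow_sub_one_mul hu (sym c l), smul_eq_mul, ← Nat.cast_smul_eq_nsmul ℂ]
      simp only [Algebra.smul_mul_assoc]
      congr 1
      ring

/-- the power sums -/
noncomputable def psum (n b : ℕ) (u : Fin (n+2) → ℕ) : Q n b := ∑ c, mono c u

theorem R_psum {n b : ℕ} (j : Fin (n+2)) (hj : j ≠ 0) (u : Fin (n+2) → ℕ) :
    R n b j (psum n b u) = (tl u : ℂ) • psum n b (u + Pi.single j 1) := by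
  unfold psum
  rw [map_sum, Finset.smul_sum]
  apply Finset.sum_congr rfl
  intro c _
  rw [R_mono, mono_add, mono_single]
  unfold sym
  rw [if_neg hj, mul_comm]

theorem exists_pos_of_tl_pos {n : ℕ} (u : Fin (n+2) → ℕ) (h : 0 < tl u) :
    ∃ j, j ≠ 0 ∧ 0 < u j := by
  by_contra hcon
  push Not at hcon
  have : tl u = 0 := by
    unfold tl
    apply Finset.sum_eq_zero
    intro k _
    split_ifs with hk
    · rfl
    · have := hcon k hk
      omega
  omega

theorem psum_mem_F {n b : ℕ} (k : ℕ) : ∀ u : Fin (n+2) → ℕ, tl u = k → psum n b u ∈ F n b k := by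
  induction k with
  | zero =>
    intro u hu
    unfold psum
    apply Submodule.sum_mem
    intro c _
    rw [mono_of_tl_zero c u hu]
    exact F_one
  | succ k ih =>
    intro u hu
    obtain ⟨j, hj, hpos⟩ := exists_pos_of_tl_pos u (by omega)
    set u' : Fin (n+2) → ℕ := fun l => u l - (if l = j then 1 else 0) with hu'
    have hsplit : u = u' + Pi.single j 1 := by
      funext l
      rw [Pi.add_apply, Pi.single_apply, hu']
      by_cases hl : l = j
      · subst hl; simp only [if_true]; omega
      · simp [hl]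
    have htl : tl u' = k := by
      have := tl_add u' (Pi.single j 1)
      rw [← hsplit, tl_single j hj] at this
      omega
    by_cases hk : k = 0
    · subst hk
      have : psum n b u = P1 n b j := by
        unfold psum P1
        apply Finset.sum_congr rfl
        intro c _
        rw [hsplit, mono_add, mono_of_tl_zero c u' htl, mono_single, one_mul]
        unfold sym
        rw [if_neg hj]
      rw [this]
      exact P1_mem_F j hj
    · have h1 := F_R j hj _ (ih u' htl)
      rw [R_psum j hj, ← hsplit, htl] at h1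
      have hk' : (k : ℂ) ≠ 0 := by exact_mod_cast hk
      have := (F n b (k+1)).smul_mem ((k : ℂ)⁻¹) h1
      rwa [smul_smul, inv_mul_cancel₀ hk', one_smul] at this

/-- the sum over all placements of the vectors `v l` in distinct columns. -/
noncomputable def Msum (n b r : ℕ) (v : Fin r → Fin (n+2) → ℕ) : Q n b :=
  ∑ f : Fin r → Fin b, if Function.Injective f then ∏ l, mono (f l) (v l) else 0

theorem prod_mono_update {n b r : ℕ} (f : Fin r → Fin b) (v : Fin r → Fin (n+2) → ℕ) (l : Fin r)
    (u : Fin (n+2) → ℕ) :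
    ∏ l', mono (f l') (Function.update v l (v l + u) l') = mono (f l) u * ∏ l', mono (f l') (v l') := by
  rw [← Finset.mul_prod_erase _ _ (Finset.mem_univ l), Function.update_self, mono_add,
    ← Finset.mul_prod_erase (a := l) _ (fun l' => mono (f l') (v l')) (Finset.mem_univ l)]
  have : ∏ x ∈ Finset.univ.erase l, mono (f x) (Function.update v l (v l + u) x)
      = ∏ x ∈ Finset.univ.erase l, mono (f x) (v x) := by
    apply Finset.prod_congr rfl
    intro x hx
    rw [Function.update_of_ne (Finset.ne_of_mem_erase hx)]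
  rw [this]
  ring

theorem sum_not_range {b r : ℕ} {A : Type*} [AddCommGroup A] (f : Fin r → Fin b)
    (hf : Function.Injective f) (g : Fin b → A) :
    ∑ c, (if c ∉ Set.range f then g c else 0) = ∑ c, g c - ∑ l, g (f l) := by
  have h1 : ∑ l, g (f l) = ∑ c, if c ∈ Set.range f then g c else 0 := by
    have h2 : ∑ l, g (f l) = ∑ c ∈ Finset.univ.image f, g c := by
      rw [Finset.sum_image (fun x _ y _ h => hf h)]
    rw [h2, ← Finset.sum_filter]
    apply Finset.sum_congr _ (fun _ _ => rfl)
    ext c
    simp
  rw [h1, ← Finset.sum_sub_distrib]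
  apply Finset.sum_congr rfl
  intro c _
  by_cases hc : c ∈ Set.range f
  · simp [hc]
  · simp [hc]

theorem Msum_cons {n b r : ℕ} (u : Fin (n+2) → ℕ) (v : Fin r → Fin (n+2) → ℕ) :
    Msum n b (r+1) (Fin.cons u v)
      = psum n b u * Msum n b r v - ∑ l, Msum n b r (Function.update v l (v l + u)) := by
  unfold Msum
  rw [← (Fin.consEquiv (fun _ : Fin (r+1) => Fin b)).sum_comp, Fintype.sum_prod_type,
    Finset.sum_comm, Finset.mul_sum]
  conv_rhs => rw [Finset.sum_comm]
  rw [← Finset.sum_sub_distrib]
  apply Finset.sum_congr rfl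
  intro f _
  have hce : ∀ c : Fin b, (Fin.consEquiv (fun _ : Fin (r+1) => Fin b)) (c, f)
      = (Fin.cons c f : Fin (r+1) → Fin b) := fun _ => rfl
  simp only [hce, Fin.cons_injective_iff, Fin.prod_univ_succ, Fin.cons_zero,
    Fin.cons_succ]
  by_cases hf : Function.Injective f
  · simp only [hf, and_true, if_true]
    have h1 := sum_not_range f hf (fun c => mono c u * ∏ l, mono (f l) (v l))
    rw [h1]
    unfold psum
    rw [Finset.sum_mul]
    congr 1
    apply Finset.sum_congr rfl
    intro l _
    rw [prod_mono_update]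
  · simp [hf]

theorem sum_tl_update {n r : ℕ} (v : Fin r → Fin (n+2) → ℕ) (l : Fin r) (u : Fin (n+2) → ℕ) :
    ∑ l', tl (Function.update v l (v l + u) l') = tl u + ∑ l', tl (v l') := by
  rw [← Finset.add_sum_erase _ _ (Finset.mem_univ l), Function.update_self, tl_add,
    ← Finset.add_sum_erase (a := l) _ (fun l' => tl (v l')) (Finset.mem_univ l)]
  have : ∑ x ∈ Finset.univ.erase l, tl (Function.update v l (v l + u) x)
      = ∑ x ∈ Finset.univ.erase l, tl (v x) := by
    apply Finset.sum_congr rfl
    intro x hx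
    rw [Function.update_of_ne (Finset.ne_of_mem_erase hx)]
  rw [this]
  ring

theorem Msum_mem_F {n b : ℕ} (r : ℕ) :
    ∀ v : Fin r → Fin (n+2) → ℕ, Msum n b r v ∈ F n b (∑ l, tl (v l)) := by
  induction r with
  | zero =>
    intro v
    have : Msum n b 0 v = 1 := by
      unfold Msum
      rw [Fintype.sum_unique, if_pos (Function.injective_of_subsingleton _)]
      simp
    rw [this]
    simpa using F_one
  | succ r ih =>
    intro v
    rw [← Fin.cons_self_tail v, Msum_cons, Fin.sum_univ_succ]
    simp only [Fin.cons_zero, Fin.cons_succ]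
    apply Submodule.sub_mem
    · exact F_mul _ _ _ _ (psum_mem_F _ _ rfl) (ih _)
    · apply Submodule.sum_mem
      intro l _
      have := ih (Function.update (Fin.tail v) l (Fin.tail v l + v 0))
      rwa [sum_tl_update] at this

/-- the number of injective self-maps of `Fin b`. -/
noncomputable def numInj (b : ℕ) : ℕ :=
  (Finset.univ.filter (fun f : Fin b → Fin b => Function.Injective f)).card

theorem numInj_ne_zero (b : ℕ) : (numInj b : ℂ) ≠ 0 := by
  unfold numInj
  rw [Nat.cast_ne_zero]
  apply Finset.card_ne_zero_of_mem (a := id)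
  simp [Function.injective_id]

theorem kap_Msum {n b : ℕ} (v : Fin b → Fin (n+2) → ℕ) (hv : ∀ c, tl (v c) ≤ b) :
    kap n b (Msum n b b v) = (numInj b : ℂ) • ∏ c, X (colMon b (v c)) := by
  have h : ∀ f : Fin b → Fin b, kap n b (if Function.Injective f then ∏ l, mono (f l) (v l) else 0)
      = if Function.Injective f then ∏ c, X (colMon b (v c)) else 0 := by
    intro f
    split_ifs with hf
    · let e : Fin b ≃ Fin b := Equiv.ofBijective f ⟨hf, Finite.surjective_of_injective hf⟩
      have h1 : ∏ l, mono (f l) (v l) = ∏ c, mono c (v (e.symm c)) := by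
        apply Fintype.prod_equiv e
        intro l
        rw [Equiv.symm_apply_apply]
        rfl
      rw [h1, kap_prod_mono _ (fun c => hv _)]
      exact Equiv.prod_comp e.symm (fun l => (X (colMon b (v l)) : MvPolynomial (Mon (n+2) b) ℂ))
    · exact map_zero _
  unfold Msum numInj
  rw [map_sum, Finset.sum_congr rfl (fun f _ => h f), ← Finset.sum_filter, Finset.sum_const,
    Nat.cast_smul_eq_nsmul]

end Vale.Agent.P181
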