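import Vale.Agent.P181.Core2

/-!
# Injectivity of the Foulkes-Howe map in the stable range
-/

namespace Vale.Agent.P181

open MvPolynomial

theorem exists_prod_X {σ : Type*} (b : ℕ) : ∀ u : σ →₀ ℕ, Finsupp.weight (1 : σ → ℕ) u = b →
    ∃ β : Fin b → σ, monomial u (1 : ℂ) = ∏ c, X (β c) := by
  classical
  induction b with
  | zero =>
    intro u hu
    refine ⟨Fin.elim0, ?_⟩
    have : u = 0 := by
      ext x
      by_contra hx
      have := Finsupp.le_weight_of_ne_zero' (w := (1 : σ → ℕ)) (s := x) (f := u) hx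
      rw [hu] at this
      simp at this
    rw [this]
    simp
  | succ b ih =>
    intro u hu
    have hne : u ≠ 0 := by
      intro h
      rw [h, map_zero] at hu
      omega
    obtain ⟨x, hx⟩ := Finsupp.ne_iff.mp hne
    have hx1 : 1 ≤ u x := Nat.one_le_iff_ne_zero.mpr hx
    have h2 : u - Finsupp.single x 1 + Finsupp.single x 1 = u := by
      apply tsub_add_cancel_of_le
      rw [Finsupp.single_le_iff]
      exact hx1
    have h3 : Finsupp.weight (1 : σ → ℕ) (u - Finsupp.single x 1) = b := by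
      have : Finsupp.weight (1 : σ → ℕ) (u - Finsupp.single x 1 + Finsupp.single x 1) = b + 1 := by
        rw [h2, hu]
      rw [map_add, Finsupp.weight_single] at this
      simpa using this
    obtain ⟨β, hβ⟩ := ih _ h3
    refine ⟨Fin.cons x β, ?_⟩
    rw [Fin.prod_univ_succ]
    simp only [Fin.cons_zero, Fin.cons_succ]
    rw [← hβ, X, monomial_mul, add_comm, h2, one_mul]

/-- the Foulkes-Howe map (square case, dehomogenized). -/
noncomputable def Phi (n b : ℕ) :
    MvPolynomial (Mon (n+2) b) ℂ →ₗ[ℂ] MvPolynomial (Mon (n+2) b) ℂ :=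
  kap n b ∘ₗ (ev n b).toLinearMap

theorem Phi_apply {n b : ℕ} (y : MvPolynomial (Mon (n+2) b) ℂ) :
    Phi n b y = kap n b (ev n b y) := rfl

theorem T_le_map {n b k : ℕ} (hk : k ≤ b) : T n b b k ≤ (T n b b k).map (Phi n b) := by
  intro w hw
  rw [as_sum w]
  apply Submodule.sum_mem
  intro u hu
  have hcu := mem_support_iff.mp hu
  have : monomial u (coeff u w) = coeff u w • monomial u (1 : ℂ) := by
    rw [smul_monomial]; simp
  rw [this]
  apply Submodule.smul_mem
  obtain ⟨β, hβ⟩ := exists_prod_X b u (hw.1 hcu)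
  have hwt : ∑ c, tw (β c) = k := by
    have h1 := IsWeightedHomogeneous.prod (R := ℂ) (w := tw) Finset.univ
      (fun c : Fin b => (X (β c) : MvPolynomial (Mon (n+2) b) ℂ)) (fun c => tw (β c))
      (fun c _ => isWeightedHomogeneous_X ℂ tw (β c))
    rw [← hβ] at h1
    have h2 := isWeightedHomogeneous_monomial tw u (1 : ℂ) (hw.2 hcu)
    have h3 : monomial u (1 : ℂ) ≠ 0 := by
      rw [Ne, monomial_eq_zero]; exact one_ne_zero
    exact IsWeightedHomogeneous.inj_right h3 h1 h2
  have hM := Msum_mem_F (n := n) (b := b) b (fun c => (β c).exp)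
  have hwt' : ∑ c, tl (β c).exp = k := hwt
  rw [hwt'] at hM
  obtain ⟨y, hy, hev⟩ := F_le hk _ hM
  refine ⟨(numInj b : ℂ)⁻¹ • y, Submodule.smul_mem _ _ hy, ?_⟩
  rw [map_smul, Phi_apply, hev, kap_Msum _ (fun c => by have := tl_exp (β c); omega), smul_smul,
    inv_mul_cancel₀ (numInj_ne_zero b), one_smul, hβ]
  apply Finset.prod_congr rfl
  intro c _
  rw [colMon_exp_self]

instance (n b d k : ℕ) : FiniteDimensional ℂ (T n b d k) := by
  have h : T n b d k ≤ restrictTotalDegree (Mon (n+2) b) ℂ d := by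
    intro w hw
    rw [mem_restrictTotalDegree]
    exact hw.1.totalDegree_le
  exact Submodule.finiteDimensional_of_le h

/-- the Foulkes-Howe map is injective on polynomials of degree `b` and weight `k ≤ b`. -/
theorem Phi_inj {n b k : ℕ} (hk : k ≤ b) (y : MvPolynomial (Mon (n+2) b) ℂ) (hy : y ∈ T n b b k)
    (h : Phi n b y = 0) : y = 0 := by
  set f := (Phi n b).domRestrict (T n b b k) with hf
  have h1 := LinearMap.finrank_range_add_finrank_ker f
  have h2 : LinearMap.range f = (T n b b k).map (Phi n b) := LinearMap.range_domRestrict _ _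
  have h3 : Module.finrank ℂ (T n b b k) ≤ Module.finrank ℂ ((T n b b k).map (Phi n b)) :=
    Submodule.finrank_mono (T_le_map hk)
  rw [h2] at h1
  have h4 : Module.finrank ℂ (LinearMap.ker f) = 0 := by omega
  have h5 : LinearMap.ker f = ⊥ := Submodule.finrank_eq_zero.mp h4
  have h6 : (⟨y, hy⟩ : T n b b k) ∈ LinearMap.ker f := by
    rw [LinearMap.mem_ker]
    exact h
  rw [h5, Submodule.mem_bot] at h6
  exact congrArg Subtype.val h6

end Vale.Agent.P181
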