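import Mathlib

/-!
# Foulkes' conjecture: the polynomial model of `Sym^a (Sym^d V)` and highest weight vectors

`V = ℂ^n` with basis `x_0, …, x_{n-1}`.  `Sym^d V` has the basis of monomials `x^m`,
`m : Mon n d`.  The symmetric algebra of `Sym^d V` is the polynomial ring on these basis
vectors, and `Sym^a (Sym^d V)` is its homogeneous part of degree `a`.
-/

namespace Vale.Agent.P181

open MvPolynomial

/-- Exponent vectors of the monomials of degree `d` in the `n` variables `x_0, …, x_{n-1}`;
they index the monomial basis of `Sym^d V`, `V = ℂ^n`. -/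
@[ext] structure Mon (n d : ℕ) where
  /-- the exponent of each variable -/
  exp : Fin n → ℕ
  /-- the total degree is `d` -/
  sum_exp : ∑ i, exp i = d

/-- The exponent vector of `x_i * x^m / x_j` when `x_j` divides `x^m` (and `m` otherwise). -/
def Mon.move {n d : ℕ} (m : Mon n d) (i j : Fin n) : Mon n d :=
  if h : 0 < m.exp j then
    ⟨fun k => (m.exp k - if k = j then 1 else 0) + if k = i then 1 else 0, by
      have h1 : ∑ k, (m.exp k - if k = j then 1 else 0)
          = (∑ k, m.exp k) - ∑ k, if k = j then 1 else 0 := by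
        apply Finset.sum_tsub_distrib
        intro k _
        split_ifs with hk
        · subst hk; exact h
        · exact Nat.zero_le _
      have h2 : 1 ≤ ∑ k, m.exp k :=
        le_trans h (Finset.single_le_sum (f := m.exp) (fun _ _ => Nat.zero_le _)
          (Finset.mem_univ j))
      rw [Finset.sum_add_distrib, h1]
      simp only [Finset.sum_ite_eq', Finset.mem_univ, if_true]
      rw [m.sum_exp] at h2 ⊢
      omega⟩
  else m

/-- The action of the matrix unit `E_ij` of `gl_n` on the symmetric algebra of `Sym^d V`:
the derivation extending `x^m ↦ m_j • x_i x^m / x_j` (which is `x_i ∂/∂x_j` on `Sym^d V`). -/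
noncomputable def E (n d : ℕ) (i j : Fin n) :
    Derivation ℂ (MvPolynomial (Mon n d) ℂ) (MvPolynomial (Mon n d) ℂ) :=
  mkDerivation ℂ fun m => (m.exp j : ℂ) • X (m.move i j)

/-- The space of highest weight vectors of weight `lam` in `Sym^a (Sym^d V)`, `V = ℂ^n`:
homogeneous polynomials of degree `a` in the monomials `x^m`, in which every term has total
degree `lam i` in `x_i` (weight `lam` for the diagonal torus), and which are killed by the
raising operators `E_ij`, `i < j`. -/
def hwSpace (n a d : ℕ) (lam : Fin n → ℕ) : Submodule ℂ (MvPolynomial (Mon n d) ℂ) where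
  carrier := {w | w.IsHomogeneous a ∧
    (∀ i, IsWeightedHomogeneous (fun m : Mon n d => m.exp i) w (lam i)) ∧
    ∀ i j, i < j → E n d i j w = 0}
  add_mem' := by
    rintro v w ⟨hv1, hv2, hv3⟩ ⟨hw1, hw2, hw3⟩
    refine ⟨hv1.add hw1, fun i => (hv2 i).add (hw2 i), fun i j hij => ?_⟩
    rw [map_add, hv3 i j hij, hw3 i j hij, add_zero]
  zero_mem' := ⟨isHomogeneous_zero _ _ _, fun i => isWeightedHomogeneous_zero _ _ _,
    fun i j _ => map_zero _⟩
  smul_mem' := by
    rintro c w ⟨hw1, hw2, hw3⟩
    refine ⟨(homogeneousSubmodule _ _ a).smul_mem c hw1,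
      fun i => (weightedHomogeneousSubmodule ℂ _ (lam i)).smul_mem c (hw2 i), fun i j hij => ?_⟩
    rw [Derivation.map_smul, hw3 i j hij, smul_zero]

/-- The multiplicity of the Schur module `S_lam V` in `Sym^a (Sym^d V)`, `V = ℂ^n`:
the dimension of the space of highest weight vectors of weight `lam`. -/
noncomputable def mult (n a d : ℕ) (lam : Fin n → ℕ) : ℕ :=
  Module.finrank ℂ (hwSpace n a d lam)

end Vale.Agent.P181
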