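import Vale.Agent.P181.Words

/-!
# The evaluation map

`Q n b` is the polynomial ring in the entries `η_{c,i}` of `b` column vectors.  The letter `0`
is dehomogenized: `sym c 0 = 1`.
-/

namespace Vale.Agent.P181

open MvPolynomial

/-- polynomial ring in the coordinates of `b` vectors -/
abbrev Q (n b : ℕ) := MvPolynomial (Fin b × Fin (n+2)) ℂ

/-- the coordinate `η_{c,i}`, with `η_{c,0} = 1`. -/
noncomputable def sym {n b : ℕ} (c : Fin b) (i : Fin (n+2)) : Q n b :=
  if i = 0 then 1 else X (c, i)

/-- the monomial of a word -/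
noncomputable def wmon {n b : ℕ} (w : Fin b → Fin (n+2)) : Q n b := ∏ c, sym c (w c)

/-- the sum of the monomials of the words of content `m`. -/
noncomputable def esum {n b : ℕ} (m : Mon (n+2) b) : Q n b :=
  ∑ w : Fin b → Fin (n+2), if cont w = m then wmon w else 0

/-- image of the variable `X_m`. -/
noncomputable def evX {n b : ℕ} (m : Mon (n+2) b) : Q n b := (m.fact : ℂ) • esum m

/-- the evaluation homomorphism. -/
noncomputable def ev (n b : ℕ) : MvPolynomial (Mon (n+2) b) ℂ →ₐ[ℂ] Q n b := aeval evX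

theorem ev_X {n b : ℕ} (m : Mon (n+2) b) : ev n b (X m) = evX m := by
  unfold ev; rw [aeval_X]

/-- polarization operator `η_{c,j} ↦ η_{c,i}`. -/
noncomputable def D (n b : ℕ) (i j : Fin (n+2)) : Derivation ℂ (Q n b) (Q n b) :=
  mkDerivation ℂ fun p => if p.2 = j then sym p.1 i else 0

/-- the derivation `η_{c,l} ↦ η_{c,j} η_{c,l}`. -/
noncomputable def R (n b : ℕ) (j : Fin (n+2)) : Derivation ℂ (Q n b) (Q n b) :=
  mkDerivation ℂ fun p => X (p.1, j) * X p

theorem wmon_update {n b : ℕ} (w : Fin b → Fin (n+2)) (c : Fin b) (l : Fin (n+2)) :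
    wmon (Function.update w c l) = sym c l * ∏ c' ∈ Finset.univ.erase c, sym c' (w c') := by
  unfold wmon
  rw [← Finset.mul_prod_erase _ _ (Finset.mem_univ c), Function.update_self]
  congr 1
  apply Finset.prod_congr rfl
  intro x hx
  rw [Function.update_of_ne (Finset.ne_of_mem_erase hx)]

theorem wmon_eq {n b : ℕ} (w : Fin b → Fin (n+2)) (c : Fin b) :
    wmon w = sym c (w c) * ∏ c' ∈ Finset.univ.erase c, sym c' (w c') := by
  unfold wmon
  rw [← Finset.mul_prod_erase _ _ (Finset.mem_univ c)]

theorem D_sym {n b : ℕ} (i j : Fin (n+2)) (hj : j ≠ 0) (c : Fin b) (l : Fin (n+2)) :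
    D n b i j (sym c l) = if l = j then sym c i else 0 := by
  unfold sym D
  by_cases hl : l = 0
  · subst hl
    rw [if_pos rfl, if_neg (Ne.symm hj)]
    exact Derivation.map_one_eq_zero _
  · rw [if_neg hl, mkDerivation_X]
    rfl

theorem D_wmon {n b : ℕ} (i j : Fin (n+2)) (hj : j ≠ 0) (w : Fin b → Fin (n+2)) :
    D n b i j (wmon w) = ∑ c, if w c = j then wmon (Function.update w c i) else 0 := by
  unfold wmon
  rw [deriv_prod]
  apply Finset.sum_congr rfl
  intro c _
  rw [D_sym i j hj]
  split_ifs with h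
  · have := wmon_update w c i
    unfold wmon at this
    rw [this]
  · simp

theorem R_sym {n b : ℕ} (j : Fin (n+2)) (c : Fin b) (l : Fin (n+2)) :
    R n b j (sym c l) = if l = 0 then 0 else X (c, j) * sym c l := by
  unfold sym R
  by_cases hl : l = 0
  · rw [if_pos hl, if_pos hl]
    exact Derivation.map_one_eq_zero _
  · rw [if_neg hl, if_neg hl, mkDerivation_X]

theorem R_wmon {n b : ℕ} (j : Fin (n+2)) (w : Fin b → Fin (n+2)) :
    R n b j (wmon w) = ∑ c, if w c = 0 then 0 else X (c, j) * wmon w := by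
  conv_lhs => unfold wmon
  rw [deriv_prod]
  apply Finset.sum_congr rfl
  intro c _
  rw [R_sym]
  split_ifs with h
  · simp
  · rw [wmon_eq w c]; ring

/-- the first power sum in the letter `j`. -/
noncomputable def P1 (n b : ℕ) (j : Fin (n+2)) : Q n b := ∑ c, X (c, j)

theorem P1_mul_wmon {n b : ℕ} (j : Fin (n+2)) (hj : j ≠ 0) (w : Fin b → Fin (n+2)) :
    P1 n b j * wmon w
      = (∑ c, if w c = 0 then wmon (Function.update w c j) else 0) + R n b j (wmon w) := by
  rw [R_wmon, ← Finset.sum_add_distrib]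
  unfold P1
  rw [Finset.sum_mul]
  apply Finset.sum_congr rfl
  intro c _
  split_ifs with h
  · rw [wmon_update, wmon_eq w c, h]
    unfold sym
    rw [if_neg hj, if_pos rfl]
    ring
  · ring

theorem evX_swap {n b : ℕ} (m : Mon (n+2) b) (i j : Fin (n+2)) (hij : i ≠ j) :
    (m.fact : ℂ) • ∑ w : Fin b → Fin (n+2), (if cont w = m then
        ∑ c, (if w c = j then wmon (Function.update w c i) else 0) else 0)
      = (m.exp j : ℂ) • evX (m.move i j) := by
  by_cases h : m.exp j = 0
  · rw [h]
    have : ∑ w : Fin b → Fin (n+2), (if cont w = m then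
        ∑ c, (if w c = j then wmon (Function.update w c i) else 0) else 0) = 0 := by
      apply Finset.sum_eq_zero
      intro w _
      split_ifs with hw
      · apply Finset.sum_eq_zero
        intro c _
        rw [if_neg]
        intro hc
        rw [← hw, cont_exp] at h
        have := (Finset.sum_eq_zero_iff.mp h) c (Finset.mem_univ c)
        rw [if_pos hc] at this
        exact one_ne_zero this
      · rfl
    rw [this]; simp
  · have hpos : 0 < m.exp j := Nat.pos_of_ne_zero h
    rw [word_swap wmon m (m.move i j) i j (m.move_rel i j hpos)]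
    unfold evX esum
    rw [← Nat.cast_smul_eq_nsmul ℂ, smul_smul, smul_smul, ← Nat.cast_mul, ← Nat.cast_mul,
      Mon.fact_rel m (m.move i j) i j hij (m.move_rel i j hpos)]

theorem D_evX {n b : ℕ} (m : Mon (n+2) b) (i j : Fin (n+2)) (hij : i ≠ j) (hj : j ≠ 0) :
    D n b i j (evX m) = (m.exp j : ℂ) • evX (m.move i j) := by
  rw [← evX_swap m i j hij]
  unfold evX esum
  rw [Derivation.map_smul, map_sum]
  congr 1
  apply Finset.sum_congr rfl
  intro w _
  split_ifs
  · exact D_wmon i j hj w
  · exact map_zero _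

/-- `ev` intertwines the raising operators. -/
theorem ev_E {n b : ℕ} (i j : Fin (n+2)) (hij : i ≠ j) (hj : j ≠ 0)
    (y : MvPolynomial (Mon (n+2) b) ℂ) :
    ev n b (E (n+2) b i j y) = D n b i j (ev n b y) := by
  induction y using MvPolynomial.induction_on with
  | C r =>
    have : ev n b (C r) = algebraMap ℂ _ r := by
      unfold ev; rw [aeval_C]
    rw [this]
    simp
  | add p q hp hq => simp only [map_add, hp, hq]
  | mul_X p m hp =>
    simp only [map_mul, Derivation.leibniz, hp, E_X, map_add, smul_eq_mul, map_smul, ev_X,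
      D_evX m i j hij hj]

theorem P1_mul_evX {n b : ℕ} (m : Mon (n+2) b) (j : Fin (n+2)) (hj : j ≠ 0) :
    P1 n b j * evX m = (m.exp 0 : ℂ) • evX (m.move j 0) + R n b j (evX m) := by
  rw [← evX_swap m j 0 hj]
  unfold evX esum
  rw [Derivation.map_smul, map_sum, ← smul_add, ← Finset.sum_add_distrib, mul_smul_comm,
    Finset.mul_sum]
  congr 1
  apply Finset.sum_congr rfl
  intro w _
  split_ifs
  · exact P1_mul_wmon j hj w
  · simp

/-- the Euler derivation. -/
noncomputable def Eul (n b : ℕ) :
    Derivation ℂ (MvPolynomial (Mon (n+2) b) ℂ) (MvPolynomial (Mon (n+2) b) ℂ) :=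
  mkDerivation ℂ X

/-- `ev` and the lowering operators `E_{j0}`. -/
theorem ev_E_zero {n b : ℕ} (j : Fin (n+2)) (hj : j ≠ 0) (y : MvPolynomial (Mon (n+2) b) ℂ) :
    ev n b (E (n+2) b j 0 y) + R n b j (ev n b y) = P1 n b j * ev n b (Eul n b y) := by
  induction y using MvPolynomial.induction_on with
  | C r =>
    have : ev n b (C r) = algebraMap ℂ _ r := by
      unfold ev; rw [aeval_C]
    rw [this]
    simp
  | add p q hp hq =>
    simp only [map_add, mul_add, ← hp, ← hq]
    ring
  | mul_X p m hp =>
    have hX : Eul n b (X m) = X m := by unfold Eul; rw [mkDerivation_X]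
    have h2 := P1_mul_evX m j hj
    simp only [map_mul, Derivation.leibniz, E_X, map_add, smul_eq_mul, map_smul, ev_X, hX]
    have h3 : P1 n b j * (ev n b p * evX m + evX m * ev n b (Eul n b p))
        = ev n b p * (P1 n b j * evX m) + evX m * (P1 n b j * ev n b (Eul n b p)) := by ring
    rw [h3, ← hp, h2]
    ring

end Vale.Agent.P181
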