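import Vale.Agent.P181.Outer2

/-!
# Summary theorems
-/

namespace Vale.Agent.P181

open MvPolynomial

/-- comparison for weights with small second entry. -/
theorem mult_second_row {n a b c d : ℕ} (habcd : a * b = c * d) (hac : a ≤ c) (hdb : d ≤ b)
    (lam : Fin (n+2) → ℕ) (h : lam 1 ≤ d) : mult (n+2) a b lam ≤ mult (n+2) c d lam := by
  obtain ⟨t, rfl⟩ := Nat.exists_eq_add_of_le hdb
  obtain ⟨s, rfl⟩ := Nat.exists_eq_add_of_le hac
  have e : a * t = s * d := by
    have h1 : a * d + a * t = a * d + s * d := by
      calc a * d + a * t = a * (d + t) := by ring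
        _ = (a + s) * d := habcd
        _ = a * d + s * d := by ring
    exact Nat.add_left_cancel h1
  by_cases h0 : a * t ≤ lam 0
  · have h1 := mult_inner (a := a) (c := d) t (fun k => lam k - if k = 0 then a * t else 0)
      (by simpa using h)
    have h2 := mult_outer (o := a) (c := d) s (fun k => lam k - if k = 0 then a * t else 0)
    rw [addFirst_sub lam _ h0] at h1
    rw [← e, addFirst_sub lam _ h0] at h2
    rw [h1]
    exact h2
  · have : mult (n+2) a (d+t) lam = 0 := by
      unfold mult
      rw [hwSpace_eq_bot_of_lt t lam h (by omega)]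
      simp
    rw [this]
    exact Nat.zero_le _

theorem mult_final {n a b c d : ℕ} (ha : 1 ≤ a) (habcd : a * b = c * d) (hac : a ≤ c) (had : a ≤ d)
    (lam : Fin (n+2) → ℕ)
    (h : lam 1 ≤ d ∨ (∑ i : Fin (n+1), lam i.succ) + lam 1 ≤ 2 * c + 1) :
    mult (n+2) a b lam ≤ mult (n+2) c d lam := by
  rcases h with h | h
  · have hdb : d ≤ b := by
      by_contra hcon
      have h1 : b < d := by omega
      have h2 : a * b < a * d := Nat.mul_lt_mul_of_pos_left h1 (by omega)
      have h3 : a * d ≤ c * d := Nat.mul_le_mul_right d hac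
      omega
    exact mult_second_row habcd hac hdb lam h
  · apply mult_general habcd had lam
    rwa [tl_eq_sum_succ]

end Vale.Agent.P181
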