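import Vale.Agent.P181.Stability

/-!
# General lemmas on gradings
-/

namespace Vale.Agent.P181

open MvPolynomial

section graded

variable {A : Type*} [CommRing A] [Algebra ℂ A] (P : ℕ → Submodule ℂ A)

theorem pow_mem_graded (h1 : (1 : A) ∈ P 0)
    (hmul : ∀ i j x y, x ∈ P i → y ∈ P j → x * y ∈ P (i + j)) {x : A} {k : ℕ} (hx : x ∈ P k)
    (e : ℕ) : x ^ e ∈ P (e * k) := by
  induction e with
  | zero => simpa using h1
  | succ e ih =>
    rw [pow_succ, Nat.succ_mul]
    exact hmul _ _ _ _ ih hx

theorem prod_mem_graded (h1 : (1 : A) ∈ P 0)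
    (hmul : ∀ i j x y, x ∈ P i → y ∈ P j → x * y ∈ P (i + j)) {ι : Type*} (t : Finset ι)
    (g : ι → A) (k : ι → ℕ) (hg : ∀ c ∈ t, g c ∈ P (k c)) :
    ∏ c ∈ t, g c ∈ P (∑ c ∈ t, k c) := by
  classical
  induction t using Finset.induction_on with
  | empty => simpa using h1
  | insert a t ha ih =>
    rw [Finset.prod_insert ha, Finset.sum_insert ha]
    exact hmul _ _ _ _ (hg a (Finset.mem_insert_self a t))
      (ih (fun c hc => hg c (Finset.mem_insert_of_mem hc)))

/-- an algebra homomorphism out of a polynomial ring that respects the weights of the variables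
respects the weights of all polynomials. -/
theorem aeval_mem_graded (h1 : (1 : A) ∈ P 0)
    (hmul : ∀ i j x y, x ∈ P i → y ∈ P j → x * y ∈ P (i + j)) {σ : Type*}
    (wt : σ → ℕ) (f : σ → A) (hf : ∀ x, f x ∈ P (wt x))
    (y : MvPolynomial σ ℂ) (d : ℕ) (hy : IsWeightedHomogeneous wt y d) :
    aeval f y ∈ P d := by
  rw [aeval_def, eval₂_eq]
  apply Submodule.sum_mem
  intro s hs
  rw [← Algebra.smul_def]
  apply Submodule.smul_mem
  have hw : Finsupp.weight wt s = d := hy (mem_support_iff.mp hs)
  rw [← hw, Finsupp.weight_apply, Finsupp.sum]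
  apply prod_mem_graded P h1 hmul
  intro x _
  rw [smul_eq_mul]
  exact pow_mem_graded P h1 hmul (hf x) _

end graded

/-- a derivation raising the weight of every variable by `e` raises all weights by `e`. -/
theorem mkDerivation_weighted {σ : Type*} (wt : σ → ℕ) (e : ℕ) (f : σ → MvPolynomial σ ℂ)
    (hf : ∀ x, IsWeightedHomogeneous wt (f x) (wt x + e)) (y : MvPolynomial σ ℂ) (d : ℕ)
    (hy : IsWeightedHomogeneous wt y d) :
    IsWeightedHomogeneous wt (mkDerivation ℂ f y) (d + e) := by
  classical
  induction hy using IsWeightedHomogeneous.induction_on with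
  | zero => rw [map_zero]; exact isWeightedHomogeneous_zero _ _ _
  | add p q hp hq ihp ihq => rw [map_add]; exact ihp.add ihq
  | monomial s r hs =>
    rw [mkDerivation_monomial]
    apply (weightedHomogeneousSubmodule ℂ wt (d + e)).smul_mem
    rw [Finsupp.sum]
    apply Submodule.sum_mem
    intro x hx
    rw [mem_weightedHomogeneousSubmodule, smul_eq_mul]
    have hx1 : 1 ≤ s x := Nat.one_le_iff_ne_zero.mpr (Finsupp.mem_support_iff.mp hx)
    have h2 : s - Finsupp.single x 1 + Finsupp.single x 1 = s := by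
      apply tsub_add_cancel_of_le
      rw [Finsupp.single_le_iff]
      exact hx1
    have h3 : Finsupp.weight wt (s - Finsupp.single x 1) + wt x = d := by
      rw [← hs]
      conv_rhs => rw [← h2]
      rw [map_add, Finsupp.weight_single]
      simp
    have h4 := (isWeightedHomogeneous_monomial wt (s - Finsupp.single x 1) ((s x : ℕ) : ℂ) rfl).mul
      (hf x)
    have h5 : Finsupp.weight wt (s - Finsupp.single x 1) + (wt x + e) = d + e := by omega
    rwa [h5] at h4

/-- polynomials all of whose monomials have `u`-weight at most `a`. -/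
def wle {τ : Type*} (u : τ → ℕ) (a : ℕ) : Submodule ℂ (MvPolynomial τ ℂ) where
  carrier := {g | ∀ s, coeff s g ≠ 0 → Finsupp.weight u s ≤ a}
  add_mem' := by
    intro g h hg hh s hs
    rw [coeff_add] at hs
    by_cases h1 : coeff s g = 0
    · apply hh
      rwa [h1, zero_add] at hs
    · exact hg s h1
  zero_mem' := by
    intro s hs
    simp at hs
  smul_mem' := by
    intro c g hg s hs
    apply hg
    intro h
    apply hs
    rw [coeff_smul, h, smul_zero]

theorem mem_wle {τ : Type*} (u : τ → ℕ) (a : ℕ) (g : MvPolynomial τ ℂ) :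
    g ∈ wle u a ↔ ∀ s, coeff s g ≠ 0 → Finsupp.weight u s ≤ a := Iff.rfl

theorem one_mem_wle {τ : Type*} (u : τ → ℕ) : (1 : MvPolynomial τ ℂ) ∈ wle u 0 := by
  classical
  intro s hs
  rw [coeff_one] at hs
  split_ifs at hs with h
  · rw [← h]; simp
  · exact absurd rfl hs

theorem mul_mem_wle {τ : Type*} (u : τ → ℕ) (i j : ℕ) (x y : MvPolynomial τ ℂ)
    (hx : x ∈ wle u i) (hy : y ∈ wle u j) : x * y ∈ wle u (i + j) := by
  classical
  intro s hs
  have h1 : s ∈ (x * y).support := mem_support_iff.mpr hs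
  have h2 := support_mul x y h1
  obtain ⟨s1, hs1, s2, hs2, rfl⟩ := Finset.mem_add.mp h2
  rw [map_add]
  exact add_le_add (hx s1 (mem_support_iff.mp hs1)) (hy s2 (mem_support_iff.mp hs2))

theorem wle_mono {τ : Type*} (u : τ → ℕ) {a a' : ℕ} (h : a ≤ a') : wle u a ≤ wle u a' :=
  fun _ hg s hs => (hg s hs).trans h

theorem X_mem_wle {τ : Type*} (u : τ → ℕ) (p : τ) : (X p : MvPolynomial τ ℂ) ∈ wle u (u p) := by
  classical
  intro s hs
  rw [coeff_X] at hs
  split_ifs at hs with h
  · rw [← h, Finsupp.weight_single]; simp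
  · exact absurd rfl hs

/-- the sum of the weights of a monomial is the inner degree times its degree. -/
theorem sum_weight_exp {n d : ℕ} (u : Mon n d →₀ ℕ) :
    ∑ i, Finsupp.weight (fun m : Mon n d => m.exp i) u = d * Finsupp.weight (1 : Mon n d → ℕ) u := by
  simp only [Finsupp.weight_apply, Finsupp.sum, smul_eq_mul, Pi.one_apply, mul_one]
  rw [Finset.sum_comm, Finset.mul_sum]
  apply Finset.sum_congr rfl
  intro m _
  rw [← Finset.mul_sum, m.sum_exp, mul_comm]

end Vale.Agent.P181
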