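import Vale.Agent.P181.Ev
import Vale.Agent.P181.Graded

/-!
# Reading off the columns
-/

namespace Vale.Agent.P181

open MvPolynomial

/-- the sum of the entries of a vector, except the entry `0`. -/
def tl {n : ℕ} (v : Fin (n+2) → ℕ) : ℕ := ∑ k, if k = 0 then 0 else v k

theorem sum_ite_zero_tl {n : ℕ} (A : ℕ) (v : Fin (n+2) → ℕ) :
    ∑ k, (if k = 0 then A else v k) = A + tl v := by
  unfold tl
  have : ∀ k : Fin (n+2), (if k = 0 then A else v k)
      = (if k = 0 then A else 0) + (if k = 0 then 0 else v k) := by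
    intro k; split_ifs <;> simp
  rw [Finset.sum_congr rfl (fun k _ => this k), Finset.sum_add_distrib]
  simp

/-- the monomial `x_0^(b - |v|) x^v`. -/
def colMon {n : ℕ} (b : ℕ) (v : Fin (n+2) → ℕ) : Mon (n+2) b :=
  if h : tl v ≤ b then ⟨fun k => if k = 0 then b - tl v else v k, by
    rw [sum_ite_zero_tl]; omega⟩
  else Mon.zpow n b

theorem colMon_exp {n b : ℕ} (v : Fin (n+2) → ℕ) (h : tl v ≤ b) (k : Fin (n+2)) :
    (colMon b v).exp k = if k = 0 then b - tl v else v k := by
  unfold colMon; rw [dif_pos h]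

theorem tl_exp {n b : ℕ} (m : Mon (n+2) b) : m.exp 0 + tl m.exp = b := by
  have h := m.sum_exp
  have h2 := sum_ite_zero_tl (m.exp 0) m.exp
  have h3 : ∑ k, (if k = 0 then m.exp 0 else m.exp k) = ∑ k, m.exp k := by
    apply Finset.sum_congr rfl
    intro k _
    split_ifs with hk
    · rw [hk]
    · rfl
  omega

theorem colMon_exp_self {n b : ℕ} (m : Mon (n+2) b) : colMon b m.exp = m := by
  have h := tl_exp m
  apply Mon.ext'
  intro k
  rw [colMon_exp _ (by omega)]
  split_ifs with hk
  · rw [hk]; omega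
  · rfl

theorem tl_congr {n : ℕ} (v v' : Fin (n+2) → ℕ) (h : ∀ k, k ≠ 0 → v k = v' k) : tl v = tl v' := by
  unfold tl
  apply Finset.sum_congr rfl
  intro k _
  split_ifs with hk
  · rfl
  · exact h k hk

theorem colMon_congr {n b : ℕ} (v v' : Fin (n+2) → ℕ) (h : ∀ k, k ≠ 0 → v k = v' k) :
    colMon b v = colMon b v' := by
  have ht := tl_congr v v' h
  by_cases hb : tl v ≤ b
  · apply Mon.ext'
    intro k
    rw [colMon_exp _ hb, colMon_exp _ (ht ▸ hb), ht]
    split_ifs with hk
    · rfl
    · exact h k hk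
  · unfold colMon
    rw [dif_neg hb, dif_neg (ht ▸ hb)]

theorem sum_ite_ite {n : ℕ} (x : Fin (n+2)) :
    ∑ l : Fin (n+2), (if l = 0 then 0 else if l = x then 1 else 0) = if x = 0 then 0 else 1 := by
  rw [Finset.sum_eq_single x]
  · simp
  · intro l _ hl
    simp [hl]
  · simp

theorem colMon_move {n b : ℕ} (v v' : Fin (n+2) → ℕ) (i j : Fin (n+2)) (hj : j ≠ 0) (hij : i ≠ j)
    (hv : tl v ≤ b) (hpos : 0 < v j)
    (hrel : ∀ l, l ≠ 0 → v' l + (if l = j then 1 else 0) = v l + (if l = i then 1 else 0)) :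
    tl v' ≤ b ∧ colMon b v' = (colMon b v).move i j := by
  have h1 : tl v' + ∑ l : Fin (n+2), (if l = 0 then 0 else if l = j then 1 else 0)
      = tl v + ∑ l : Fin (n+2), (if l = 0 then 0 else if l = i then 1 else 0) := by
    unfold tl
    rw [← Finset.sum_add_distrib, ← Finset.sum_add_distrib]
    apply Finset.sum_congr rfl
    intro l _
    by_cases hl : l = 0
    · simp [hl]
    · simp only [if_neg hl]
      exact hrel l hl
  rw [sum_ite_ite, sum_ite_ite, if_neg hj] at h1
  have hle : tl v' ≤ b := by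
    split_ifs at h1 <;> omega
  refine ⟨hle, ?_⟩
  have hjpos : 0 < (colMon b v).exp j := by
    rw [colMon_exp _ hv, if_neg hj]; exact hpos
  have htl : 1 ≤ tl v := by
    have : v j ≤ tl v := by
      unfold tl
      have := Finset.single_le_sum (f := fun k => if k = 0 then 0 else v k)
        (fun _ _ => Nat.zero_le _) (Finset.mem_univ j)
      simpa [hj] using this
    omega
  apply Mon.ext'
  intro k
  rw [Mon.move_apply _ _ _ hjpos, colMon_exp _ hle, colMon_exp _ hv]
  by_cases hk : k = 0
  · subst hk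
    rw [if_pos rfl, if_pos rfl, if_neg (Ne.symm hj)]
    by_cases hi : i = 0
    · subst hi
      rw [if_pos rfl] at h1 ⊢
      omega
    · rw [if_neg hi] at h1
      rw [if_neg (Ne.symm hi)]
      omega
  · rw [if_neg hk, if_neg hk]
    have := hrel k hk
    by_cases hkj : k = j
    · subst hkj
      rw [if_pos rfl] at this ⊢
      omega
    · rw [if_neg hkj] at this ⊢
      omega

/-- the product of the variables attached to the columns of an exponent matrix. -/
noncomputable def kapMon {n b : ℕ} (s : Fin b × Fin (n+2) →₀ ℕ) : MvPolynomial (Mon (n+2) b) ℂ :=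
  if ∀ c, tl (fun l => s (c, l)) ≤ b then ∏ c, X (colMon b fun l => s (c, l)) else 0

/-- the linear map reading off the columns. -/
noncomputable def kap (n b : ℕ) : Q n b →ₗ[ℂ] MvPolynomial (Mon (n+2) b) ℂ :=
  (basisMonomials (Fin b × Fin (n+2)) ℂ).constr ℂ kapMon

theorem kap_monomial {n b : ℕ} (s : Fin b × Fin (n+2) →₀ ℕ) (r : ℂ) :
    kap n b (monomial s r) = r • kapMon s := by
  have : monomial s r = r • basisMonomials (Fin b × Fin (n+2)) ℂ s := by
    rw [coe_basisMonomials, smul_monomial]; simp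
  unfold kap
  rw [this, map_smul, Module.Basis.constr_basis]

theorem deriv_sum_apply {A : Type*} [CommRing A] [Algebra ℂ A] {ι : Type*} (t : Finset ι)
    (Dc : ι → Derivation ℂ A A) (g : A) : (∑ c ∈ t, Dc c) g = ∑ c ∈ t, Dc c g := by
  classical
  induction t using Finset.induction_on with
  | empty => simp
  | insert a t ha ih => rw [Finset.sum_insert ha, Finset.sum_insert ha, Derivation.add_apply, ih]

theorem D_eq_sum {n b : ℕ} (i j : Fin (n+2)) (g : Q n b) :
    D n b i j g = ∑ c, sym c i * pderiv (c, j) g := by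
  have key : D n b i j = ∑ c : Fin b, (sym c i : Q n b) • pderiv (R := ℂ) (c, j) := by
    apply MvPolynomial.derivation_ext
    intro p
    obtain ⟨c0, l⟩ := p
    unfold D
    rw [mkDerivation_X, deriv_sum_apply]
    simp only [Derivation.smul_apply, pderiv_X, smul_eq_mul, Pi.single_apply, Prod.mk.injEq]
    rw [Finset.sum_eq_single c0]
    · by_cases h : l = j
      · simp [h]
      · simp [h]
    · intro c _ hc
      simp [Ne.symm hc]
    · simp
  rw [key, deriv_sum_apply]
  rfl

/-- the exponent matrix with one letter `j` of column `c` replaced by a letter `i`. -/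
noncomputable def sh {n b : ℕ} (s : Fin b × Fin (n+2) →₀ ℕ) (c : Fin b) (i j : Fin (n+2)) :
    Fin b × Fin (n+2) →₀ ℕ :=
  s - Finsupp.single (c, j) 1 + (if i = 0 then 0 else Finsupp.single (c, i) 1)

theorem sym_mul_monomial {n b : ℕ} (c : Fin b) (i : Fin (n+2)) (t : Fin b × Fin (n+2) →₀ ℕ)
    (r : ℂ) :
    sym c i * monomial t r = monomial (t + (if i = 0 then 0 else Finsupp.single (c, i) 1)) r := by
  unfold sym
  split_ifs with h
  · simp
  · rw [X, monomial_mul, add_comm t, one_mul]

theorem sh_apply {n b : ℕ} (s : Fin b × Fin (n+2) →₀ ℕ) (c : Fin b) (i j : Fin (n+2))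
    (c' : Fin b) (l : Fin (n+2)) :
    sh s c i j (c', l) = s (c', l) - (if c' = c ∧ l = j then 1 else 0)
      + (if c' = c ∧ l = i ∧ i ≠ 0 then 1 else 0) := by
  have e1 : ((c, j) = (c', l)) ↔ (c' = c ∧ l = j) := by
    rw [Prod.mk.injEq]
    constructor <;> rintro ⟨h1, h2⟩ <;> exact ⟨h1.symm, h2.symm⟩
  unfold sh
  rw [Finsupp.add_apply, Finsupp.tsub_apply, Finsupp.single_apply, if_congr e1 rfl rfl]
  congr 1
  by_cases hi : i = 0
  · simp [hi]
  · have e2 : ((c, i) = (c', l)) ↔ (c' = c ∧ l = i ∧ i ≠ 0) := by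
      rw [Prod.mk.injEq]
      constructor
      · rintro ⟨h1, h2⟩
        exact ⟨h1.symm, h2.symm, hi⟩
      · rintro ⟨h1, h2, _⟩
        exact ⟨h1.symm, h2.symm⟩
    rw [if_neg hi, Finsupp.single_apply, if_congr e2 rfl rfl]

theorem kapMon_sh {n b : ℕ} (s : Fin b × Fin (n+2) →₀ ℕ) (c : Fin b) (i j : Fin (n+2))
    (hj : j ≠ 0) (hij : i ≠ j) (hs : ∀ c, tl (fun l => s (c, l)) ≤ b) (hpos : 0 < s (c, j)) :
    kapMon (sh s c i j) = X ((colMon b fun l => s (c, l)).move i j)
      * ∏ c' ∈ Finset.univ.erase c, X (colMon b fun l => s (c', l)) := by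
  have hne : ∀ c', c' ≠ c → (fun l => sh s c i j (c', l)) = fun l => s (c', l) := by
    intro c' hc'
    funext l
    rw [sh_apply]
    simp [hc']
  have hc := colMon_move (b := b) (fun l => s (c, l)) (fun l => sh s c i j (c, l)) i j hj hij (hs c)
    hpos (by
      intro l hl
      rw [sh_apply]
      by_cases h1 : l = j
      · subst h1
        simp [Ne.symm hij]
        omega
      · by_cases h2 : l = i
        · subst h2
          simp [h1, hl]
        · simp [h1, h2])
  have hall : ∀ c', tl (fun l => sh s c i j (c', l)) ≤ b := by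
    intro c'
    by_cases hc' : c' = c
    · rw [hc']; exact hc.1
    · rw [hne c' hc']; exact hs c'
  unfold kapMon
  rw [if_pos hall, ← Finset.mul_prod_erase _ _ (Finset.mem_univ c), hc.2]
  congr 1
  apply Finset.prod_congr rfl
  intro c' hc'
  rw [hne c' (Finset.ne_of_mem_erase hc')]

theorem kap_D_monomial {n b : ℕ} (i j : Fin (n+2)) (hij : i ≠ j) (hj : j ≠ 0)
    (s : Fin b × Fin (n+2) →₀ ℕ) (hs : ∀ c, tl (fun l => s (c, l)) ≤ b) (r : ℂ) :
    kap n b (D n b i j (monomial s r)) = E (n+2) b i j (kap n b (monomial s r)) := by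
  rw [D_eq_sum, map_sum, kap_monomial, Derivation.map_smul]
  conv_rhs => unfold kapMon
  rw [if_pos hs, deriv_prod, Finset.smul_sum]
  apply Finset.sum_congr rfl
  intro c _
  rw [pderiv_monomial, sym_mul_monomial, kap_monomial, E_X, colMon_exp _ (hs c), if_neg hj]
  by_cases hpos : s (c, j) = 0
  · rw [hpos]; simp
  · have := kapMon_sh s c i j hj hij hs (Nat.pos_of_ne_zero hpos)
    unfold sh at this
    rw [this]
    simp only [Algebra.smul_mul_assoc, smul_smul]

end Vale.Agent.P181
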