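import Vale.Agent.P181.Kap

/-!
# Properties of the column map
-/

namespace Vale.Agent.P181

open MvPolynomial

/-- the weight counting the degree in the variables of column `c` -/
def wc {n b : ℕ} (c : Fin b) : Fin b × Fin (n+2) → ℕ := fun p => if p.1 = c ∧ p.2 ≠ 0 then 1 else 0

/-- the weight counting the degree in the letter `i` -/
def wl {n b : ℕ} (i : Fin (n+2)) : Fin b × Fin (n+2) → ℕ := fun p => if p.2 = i then 1 else 0

theorem weight_wc {n b : ℕ} (c : Fin b) (s : Fin b × Fin (n+2) →₀ ℕ) :
    Finsupp.weight (wc c) s = tl (fun l => s (c, l)) := by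
  rw [Finsupp.weight_apply, Finsupp.sum_fintype _ _ (by intro i; simp), Fintype.sum_prod_type]
  unfold tl wc
  rw [Finset.sum_eq_single c]
  · apply Finset.sum_congr rfl
    intro l _
    by_cases hl : l = 0
    · simp [hl]
    · simp [hl]
  · intro c' _ hc'
    simp [hc']
  · simp

theorem weight_wl {n b : ℕ} (i : Fin (n+2)) (s : Fin b × Fin (n+2) →₀ ℕ) :
    Finsupp.weight (wl i) s = ∑ c, s (c, i) := by
  rw [Finsupp.weight_apply, Finsupp.sum_fintype _ _ (by intro i; simp), Fintype.sum_prod_type]
  unfold wl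
  apply Finset.sum_congr rfl
  intro c _
  simp

theorem kap_eq_sum {n b : ℕ} (g : Q n b) :
    kap n b g = ∑ s ∈ g.support, coeff s g • kapMon s := by
  conv_lhs => rw [as_sum g]
  rw [map_sum]
  apply Finset.sum_congr rfl
  intro s _
  rw [kap_monomial]

/-- the column map intertwines the polarization operators with the raising operators. -/
theorem kap_D {n b : ℕ} (i j : Fin (n+2)) (hij : i ≠ j) (hj : j ≠ 0) (g : Q n b)
    (hg : ∀ c, g ∈ wle (wc c) b) :
    kap n b (D n b i j g) = E (n+2) b i j (kap n b g) := by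
  conv_lhs => rw [as_sum g]
  conv_rhs => rw [as_sum g]
  rw [map_sum, map_sum, map_sum, map_sum]
  apply Finset.sum_congr rfl
  intro s hs
  apply kap_D_monomial i j hij hj
  intro c
  rw [← weight_wc]
  exact hg c s (mem_support_iff.mp hs)

theorem kapMon_isHomogeneous {n b : ℕ} (s : Fin b × Fin (n+2) →₀ ℕ) :
    (kapMon s).IsHomogeneous b := by
  unfold kapMon
  split_ifs
  · have := IsHomogeneous.prod (R := ℂ) Finset.univ
      (fun c : Fin b => (X (colMon b fun l => s (c, l)) : MvPolynomial (Mon (n+2) b) ℂ))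
      (fun _ => 1) (fun c _ => isHomogeneous_X ℂ _)
    simpa using this
  · exact isHomogeneous_zero _ _ _

theorem kap_isHomogeneous {n b : ℕ} (g : Q n b) : (kap n b g).IsHomogeneous b := by
  rw [kap_eq_sum]
  apply IsHomogeneous.sum
  intro s _
  exact (homogeneousSubmodule _ _ b).smul_mem _ (kapMon_isHomogeneous s)

theorem kapMon_weight {n b : ℕ} (i : Fin (n+2)) (hi : i ≠ 0) (s : Fin b × Fin (n+2) →₀ ℕ) :
    IsWeightedHomogeneous (fun m : Mon (n+2) b => m.exp i) (kapMon s) (Finsupp.weight (wl i) s) := by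
  unfold kapMon
  split_ifs with h
  · have := IsWeightedHomogeneous.prod (R := ℂ) (w := fun m : Mon (n+2) b => m.exp i) Finset.univ
      (fun c : Fin b => (X (colMon b fun l => s (c, l)) : MvPolynomial (Mon (n+2) b) ℂ))
      (fun c => s (c, i)) (fun c _ => by
        have h2 := isWeightedHomogeneous_X ℂ (fun m : Mon (n+2) b => m.exp i)
          (colMon b fun l => s (c, l))
        rwa [colMon_exp _ (h c), if_neg hi] at h2)
    rwa [← weight_wl] at this
  · exact isWeightedHomogeneous_zero _ _ _

theorem kap_weight {n b : ℕ} (i : Fin (n+2)) (hi : i ≠ 0) (g : Q n b) (k : ℕ)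
    (hg : IsWeightedHomogeneous (wl i) g k) :
    IsWeightedHomogeneous (fun m : Mon (n+2) b => m.exp i) (kap n b g) k := by
  rw [kap_eq_sum]
  apply IsWeightedHomogeneous.sum
  intro s hs
  have := kapMon_weight i hi s
  rw [hg (mem_support_iff.mp hs)] at this
  exact (weightedHomogeneousSubmodule ℂ _ k).smul_mem _ this

theorem colMon_add {n a : ℕ} (t : ℕ) (v : Fin (n+2) → ℕ) (h : tl v ≤ a) :
    colMon (a + t) v = (colMon a v).addZ t := by
  apply Mon.ext'
  intro k
  rw [colMon_exp _ (by omega), Mon.addZ_exp, colMon_exp _ h]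
  split_ifs
  · omega
  · rfl

/-- if all column degrees are at most `a`, the image of the column map only involves variables
divisible by `x_0 ^ t`. -/
theorem kap_mem_range {n a : ℕ} (t : ℕ) (g : Q n (a + t)) (hg : ∀ c, g ∈ wle (wc c) a) :
    ∃ q : MvPolynomial (Mon (n+2) a) ℂ, rename (Mon.addZ t) q = kap n (a + t) g := by
  have : kap n (a + t) g ∈ LinearMap.range (rename (R := ℂ) (Mon.addZ (n := n) (c := a) t)).toLinearMap := by
    rw [kap_eq_sum]
    apply Submodule.sum_mem
    intro s hs
    apply Submodule.smul_mem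
    have h1 : ∀ c, tl (fun l => s (c, l)) ≤ a := by
      intro c
      rw [← weight_wc]
      exact hg c s (mem_support_iff.mp hs)
    unfold kapMon
    rw [if_pos (fun c => (h1 c).trans (Nat.le_add_right a t))]
    refine ⟨∏ c, X (colMon a fun l => s (c, l)), ?_⟩
    rw [AlgHom.toLinearMap_apply, map_prod]
    apply Finset.prod_congr rfl
    intro c _
    rw [rename_X, colMon_add t _ (h1 c)]
  obtain ⟨q, hq⟩ := this
  exact ⟨q, hq⟩

/-- the monomial `η_c ^ u`. -/
noncomputable def mono {n b : ℕ} (c : Fin b) (u : Fin (n+2) → ℕ) : Q n b := ∏ l, sym c l ^ u l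

theorem prod_mono_eq_monomial {n b : ℕ} (u : Fin b → Fin (n+2) → ℕ) :
    ∏ c, mono c (u c) = monomial (Finsupp.equivFunOnFinite.symm
      (fun p : Fin b × Fin (n+2) => if p.2 = 0 then 0 else u p.1 p.2)) (1 : ℂ) := by
  rw [monomial_eq, Finsupp.prod_fintype _ _ (by intro i; simp), Fintype.prod_prod_type]
  simp only [C_1, one_mul, Finsupp.equivFunOnFinite_symm_apply_apply]
  apply Finset.prod_congr rfl
  intro c _
  unfold mono
  apply Finset.prod_congr rfl
  intro l _
  unfold sym
  split_ifs <;> simp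

theorem kap_prod_mono {n b : ℕ} (u : Fin b → Fin (n+2) → ℕ) (hu : ∀ c, tl (u c) ≤ b) :
    kap n b (∏ c, mono c (u c)) = ∏ c, X (colMon b (u c)) := by
  rw [prod_mono_eq_monomial, kap_monomial, one_smul]
  have h1 : ∀ c, colMon b (fun l => (Finsupp.equivFunOnFinite.symm
      (fun p : Fin b × Fin (n+2) => if p.2 = 0 then 0 else u p.1 p.2)) (c, l)) = colMon b (u c) := by
    intro c
    apply colMon_congr
    intro k hk
    simp [hk]
  have h2 : ∀ c, tl (fun l => (Finsupp.equivFunOnFinite.symm
      (fun p : Fin b × Fin (n+2) => if p.2 = 0 then 0 else u p.1 p.2)) (c, l)) = tl (u c) := by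
    intro c
    apply tl_congr
    intro k hk
    simp [hk]
  unfold kapMon
  rw [if_pos (fun c => (h2 c).le.trans (hu c))]
  apply Finset.prod_congr rfl
  intro c _
  rw [h1 c]

end Vale.Agent.P181
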