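import Vale.Agent.P181.Stable

/-!
# Outer stability
-/

namespace Vale.Agent.P181

open MvPolynomial

noncomputable instance (n d : ℕ) : Fintype (Mon n d) := Fintype.ofFinite _

theorem E_eq_sum {n d : ℕ} (i j : Fin n) (w : MvPolynomial (Mon n d) ℂ) :
    E n d i j w = ∑ m, (m.exp j : ℂ) • (X (m.move i j) * pderiv m w) := by
  have key : E n d i j = ∑ m : Mon n d,
      ((m.exp j : ℂ) • (X (m.move i j) : MvPolynomial (Mon n d) ℂ)) • pderiv (R := ℂ) m := by
    apply MvPolynomial.derivation_ext
    intro m0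
    rw [E_X, deriv_sum_apply]
    simp only [Derivation.smul_apply, pderiv_X, smul_eq_mul, Pi.single_apply]
    rw [Finset.sum_eq_single m0]
    · simp
    · intro m _ hm
      simp [Ne.symm hm]
    · simp
  rw [key, deriv_sum_apply]
  apply Finset.sum_congr rfl
  intro m _
  rw [Derivation.smul_apply, smul_eq_mul, Algebra.smul_mul_assoc]

theorem coeff_E {n d : ℕ} (i j : Fin n) (w : MvPolynomial (Mon n d) ℂ) (u : Mon n d →₀ ℕ) :
    coeff u (E n d i j w) = ∑ m : Mon n d, (m.exp j : ℂ) * (if m.move i j ∈ u.support then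
      coeff (u - Finsupp.single (m.move i j) 1 + Finsupp.single m 1) w
        * ((((u - Finsupp.single (m.move i j) 1 : Mon n d →₀ ℕ) m : ℕ) : ℂ) + 1) else 0) := by
  rw [E_eq_sum, coeff_sum]
  apply Finset.sum_congr rfl
  intro m _
  rw [coeff_smul, coeff_X_mul', smul_eq_mul]
  split_ifs
  · rw [coeff_pderiv]
  · rfl

theorem tw_move {n d : ℕ} (m : Mon (n+2) d) (i j : Fin (n+2)) (hi : i ≠ 0) (hj : j ≠ 0) :
    tw (m.move i j) = tw m := by
  by_cases h : m.exp j = 0
  · rw [Mon.move_of_zero _ _ _ h]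
  · have h1 := tl_exp m
    have h2 := tl_exp (m.move i j)
    rw [Mon.move_apply _ _ _ (Nat.pos_of_ne_zero h), if_neg (Ne.symm hj), if_neg (Ne.symm hi)] at h2
    unfold tw
    omega

theorem exp_of_tw_one {n d : ℕ} (m : Mon (n+2) d) (j : Fin (n+2)) (hj : j ≠ 0) (h1 : tw m = 1)
    (hpos : 0 < m.exp j) (k : Fin (n+2)) :
    m.exp k = if k = 0 then d - 1 else if k = j then 1 else 0 := by
  have h0 := tl_exp m
  have h2 : tl m.exp = 1 := h1
  have h3 := h2
  unfold tl at h3
  rw [← Finset.add_sum_erase _ _ (Finset.mem_univ j), if_neg hj] at h3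
  have h4 : ∑ x ∈ Finset.univ.erase j, (if x = 0 then 0 else m.exp x) = 0 := by omega
  by_cases hk : k = 0
  · rw [if_pos hk, hk]; omega
  · rw [if_neg hk]
    by_cases hkj : k = j
    · rw [if_pos hkj, hkj]; omega
    · rw [if_neg hkj]
      have := (Finset.sum_eq_zero_iff.mp h4) k (Finset.mem_erase.mpr ⟨hkj, Finset.mem_univ k⟩)
      rwa [if_neg hk] at this

/-- indicator of the variables of weight one -/
def s1 {n d : ℕ} (m : Mon (n+2) d) : ℕ := if tw m = 1 then 1 else 0

/-- indicator of the variable `x_0^(d-1) x_1` -/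
def a1 {n d : ℕ} (m : Mon (n+2) d) : ℕ := if tw m = 1 then m.exp 1 else 0

theorem weight_swap {σ : Type*} [DecidableEq σ] (ω : σ → ℕ) (u : σ →₀ ℕ) (m m' : σ) (hm : u m ≠ 0) :
    Finsupp.weight ω (u - Finsupp.single m 1 + Finsupp.single m' 1) + ω m
      = Finsupp.weight ω u + ω m' := by
  rw [map_add, Finsupp.weight_single, ← Finsupp.weight_sub_single_add (w := ω) hm]
  simp only [one_smul]
  ring

/-- in a vector killed by the raising operators `E_{1j}`, the number of factors of weight one of any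
monomial is at most the `x_1`-weight. -/
theorem weight_s1_le {n d : ℕ} (w : MvPolynomial (Mon (n+2) d) ℂ) (l : ℕ)
    (hwt : IsWeightedHomogeneous (fun m : Mon (n+2) d => m.exp 1) w l)
    (hE : ∀ j : Fin (n+2), 1 < j → E (n+2) d 1 j w = 0)
    (u0 : Mon (n+2) d →₀ ℕ) (hu0 : coeff u0 w ≠ 0) : Finsupp.weight s1 u0 ≤ l := by
  classical
  set S := w.support.filter (fun u => Finsupp.weight s1 u = Finsupp.weight s1 u0) with hS
  have hne : S.Nonempty := ⟨u0, by simp [hS, hu0]⟩
  obtain ⟨u, hu, hmax⟩ := Finset.exists_max_image S (fun u => Finsupp.weight a1 u) hne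
  have hu' : coeff u w ≠ 0 ∧ Finsupp.weight s1 u = Finsupp.weight s1 u0 := by
    simpa [hS] using hu
  have hle : Finsupp.weight a1 u ≤ l := by
    rw [← hwt hu'.1, Finsupp.weight_eq_sum, Finsupp.weight_eq_sum]
    apply Finset.sum_le_sum
    intro m _
    simp only [smul_eq_mul]
    apply Nat.mul_le_mul_left
    unfold a1
    split_ifs <;> omega
  by_contra hcon
  have hlt : Finsupp.weight a1 u < Finsupp.weight s1 u := by omega
  have hex : ∃ m, u m ≠ 0 ∧ a1 m < s1 m := by
    by_contra hno
    push Not at hno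
    have : Finsupp.weight s1 u ≤ Finsupp.weight a1 u := by
      rw [Finsupp.weight_eq_sum, Finsupp.weight_eq_sum]
      apply Finset.sum_le_sum
      intro m _
      simp only [smul_eq_mul]
      by_cases hm : u m = 0
      · simp [hm]
      · exact Nat.mul_le_mul_left _ (hno m hm)
    omega
  obtain ⟨m, hm, hlt2⟩ := hex
  have htw : tw m = 1 := by
    by_contra h
    unfold s1 a1 at hlt2
    simp [h] at hlt2
  have hm1 : m.exp 1 = 0 := by
    unfold s1 a1 at hlt2
    simp only [htw, if_true] at hlt2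
    omega
  obtain ⟨j, hj0, hjpos⟩ := exists_pos_of_tl_pos m.exp (by
    have : tl m.exp = 1 := htw
    omega)
  have hj1 : j ≠ 1 := by
    intro h; rw [h] at hjpos; omega
  have h1j : (1 : Fin (n+2)) < j := by
    rw [Fin.lt_def]
    have e1 : ((1 : Fin (n+2)) : ℕ) = 1 := rfl
    have e2 : (j : ℕ) ≠ 0 := fun h => hj0 (Fin.ext h)
    have e3 : (j : ℕ) ≠ 1 := fun h => hj1 (Fin.ext h)
    omega
  have h10 : (1 : Fin (n+2)) ≠ 0 := by simp
  set m' := m.move 1 j with hm'
  set u' := u - Finsupp.single m 1 + Finsupp.single m' 1 with hu'def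
  have hc := coeff_E 1 j w u'
  rw [hE j h1j, coeff_zero] at hc
  have hm'supp : m' ∈ u'.support := by
    rw [Finsupp.mem_support_iff, hu'def]
    simp
  have hback : u' - Finsupp.single m' 1 = u - Finsupp.single m 1 := by
    rw [hu'def, add_tsub_cancel_right]
  have hback2 : u - Finsupp.single m 1 + Finsupp.single m 1 = u := by
    apply tsub_add_cancel_of_le
    rw [Finsupp.single_le_iff]
    exact Nat.one_le_iff_ne_zero.mpr hm
  have htw' : tw m' = 1 := by rw [hm', tw_move _ _ _ h10 hj0, htw]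
  have hm'1 : m'.exp 1 = 1 := by
    rw [hm', Mon.move_apply _ _ _ hjpos, if_neg (Ne.symm hj1), if_pos rfl, hm1]
  rw [Finset.sum_eq_single m] at hc
  · rw [← hm', if_pos hm'supp, hback, hback2] at hc
    have h1 : (m.exp j : ℂ) ≠ 0 := by
      exact_mod_cast (Nat.pos_iff_ne_zero.mp hjpos)
    have h2 : ((((u - Finsupp.single m 1 : Mon (n+2) d →₀ ℕ) m : ℕ) : ℂ) + 1) ≠ 0 :=
      Nat.cast_add_one_ne_zero _
    exact (mul_ne_zero h1 (mul_ne_zero hu'.1 h2)) hc.symm
  · intro m2 _ hm2
    by_cases hz : m2.exp j = 0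
    · rw [hz]; simp
    have hz' : 0 < m2.exp j := Nat.pos_of_ne_zero hz
    split_ifs with hsupp
    · have hzero : coeff (u' - Finsupp.single (m2.move 1 j) 1 + Finsupp.single m2 1) w = 0 := by
        by_contra hne0
        have hs := Finsupp.mem_support_iff.mp hsupp
        have w1 := weight_swap s1 u' (m2.move 1 j) m2 hs
        have w2 := weight_swap s1 u m m' hm
        have w3 := weight_swap a1 u' (m2.move 1 j) m2 hs
        have w4 := weight_swap a1 u m m' hm
        rw [← hu'def] at w2 w4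
        have t2 : tw (m2.move 1 j) = tw m2 := tw_move _ _ _ h10 hj0
        have hne1 : tw m2 ≠ 1 := by
          intro h
          apply hm2
          apply Mon.ext'
          intro k
          rw [exp_of_tw_one m2 j hj0 h hz', exp_of_tw_one m j hj0 htw hjpos]
        have e1 : s1 (m2.move 1 j) = s1 m2 := by unfold s1; rw [t2]
        have e2 : s1 m = 1 := by unfold s1; rw [if_pos htw]
        have e3 : s1 m' = 1 := by unfold s1; rw [if_pos htw']
        have e4 : a1 (m2.move 1 j) = 0 := by unfold a1; rw [t2, if_neg hne1]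
        have e5 : a1 m2 = 0 := by unfold a1; rw [if_neg hne1]
        have e6 : a1 m = 0 := by unfold a1; rw [if_pos htw, hm1]
        have e7 : a1 m' = 1 := by unfold a1; rw [if_pos htw', hm'1]
        have hmem : u' - Finsupp.single (m2.move 1 j) 1 + Finsupp.single m2 1 ∈ S := by
          rw [hS, Finset.mem_filter, mem_support_iff]
          refine ⟨hne0, ?_⟩
          omega
        have := hmax _ hmem
        omega
      rw [hzero]; simp
    · simp
  · simp

end Vale.Agent.P181
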