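import Vale.Agent.P181.Outer

/-!
# Outer stability and the general comparison theorem
-/

namespace Vale.Agent.P181

open MvPolynomial

theorem zpow_of_tw_zero {n d : ℕ} (m : Mon (n+2) d) (h : tw m = 0) : m = Mon.zpow n d := by
  have h0 := tl_exp m
  have h1 : tl m.exp = 0 := h
  apply Mon.ext'
  intro k
  unfold Mon.zpow
  by_cases hk : k = 0
  · simp only [hk, if_true]; omega
  · simp only [if_neg hk]
    unfold tl at h1
    have := (Finset.sum_eq_zero_iff.mp h1) k (Finset.mem_univ k)
    rwa [if_neg hk] at this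

/-- a highest weight vector of large degree is divisible by the variable `x_0 ^ d`. -/
theorem X_zpow_dvd {n o d : ℕ} (mu : Fin (n+2) → ℕ) (w : MvPolynomial (Mon (n+2) d) ℂ)
    (hw : w ∈ hwSpace (n+2) (o+1) d mu) (h : tl mu + mu 1 ≤ 2 * o + 1) :
    X (Mon.zpow n d) ∣ w := by
  classical
  rw [X_dvd_iff_modMonomial_eq_zero, eq_zero_iff]
  intro u
  by_cases hu : Finsupp.single (Mon.zpow n d) 1 ≤ u
  · exact coeff_modMonomial_of_le _ hu
  · rw [coeff_modMonomial_of_not_le _ hu]
    by_contra hne
    have hz : u (Mon.zpow n d) = 0 := by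
      rw [Finsupp.single_le_iff] at hu
      omega
    have h1 : Finsupp.weight (1 : Mon (n+2) d → ℕ) u = o + 1 := hw.1 hne
    have h2 : Finsupp.weight tw u = tl mu := (mem_T_of_mem_hwSpace mu w hw).2 hne
    have h3 : Finsupp.weight s1 u ≤ mu 1 :=
      weight_s1_le w (mu 1) (hw.2.1 1) (fun j hj => hw.2.2 1 j hj) u hne
    have h4 : 2 * Finsupp.weight (1 : Mon (n+2) d → ℕ) u
        ≤ Finsupp.weight tw u + Finsupp.weight s1 u := by
      rw [Finsupp.weight_eq_sum, Finsupp.weight_eq_sum, Finsupp.weight_eq_sum, Finset.mul_sum,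
        ← Finset.sum_add_distrib]
      apply Finset.sum_le_sum
      intro m _
      simp only [smul_eq_mul, Pi.one_apply, mul_one]
      by_cases hm : u m = 0
      · simp [hm]
      · have hmz : tw m ≠ 0 := by
          intro h0
          apply hm
          rw [zpow_of_tw_zero m h0, hz]
        have h5 : 2 ≤ tw m + s1 m := by
          unfold s1
          split_ifs <;> omega
        calc 2 * u m = u m * 2 := mul_comm _ _
          _ ≤ u m * (tw m + s1 m) := Nat.mul_le_mul_left _ h5
          _ = u m * tw m + u m * s1 m := mul_add _ _ _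
    omega

theorem mem_hwSpace_of_mul {n o c : ℕ} (lam : Fin (n+2) → ℕ) (w : MvPolynomial (Mon (n+2) c) ℂ)
    (h : X (Mon.zpow n c) * w ∈ hwSpace (n+2) (o+1) c (addFirst lam c)) :
    w ∈ hwSpace (n+2) o c lam := by
  obtain ⟨h1, h2, h3⟩ := h
  refine ⟨?_, fun i => ?_, fun i j hij => ?_⟩
  · intro u hu
    have := h1 (d := Finsupp.single (Mon.zpow n c) 1 + u) (by rwa [coeff_X_mul])
    rw [map_add, Finsupp.weight_single] at this
    simp only [Pi.one_apply, smul_eq_mul, mul_one] at this
    omega
  · intro u hu
    have := h2 i (d := Finsupp.single (Mon.zpow n c) 1 + u) (by rwa [coeff_X_mul])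
    rw [map_add, Finsupp.weight_single] at this
    unfold addFirst Mon.zpow at this
    simp only [smul_eq_mul, one_mul] at this
    omega
  · have hj : j ≠ 0 := by
      intro h; rw [h] at hij; exact absurd hij (by simp)
    have := h3 i j hij
    rw [Derivation.leibniz, E_X_zpow n c i j hj, smul_zero, add_zero, smul_eq_mul] at this
    exact (mul_eq_zero.mp this).resolve_left (X_ne_zero _)

theorem mult_outer_step {n o c : ℕ} (lam : Fin (n+2) → ℕ) (h : tl lam + lam 1 ≤ 2 * o + 1) :
    mult (n+2) (o+1) c (addFirst lam c) ≤ mult (n+2) o c lam := by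
  unfold mult
  have hle : hwSpace (n+2) (o+1) c (addFirst lam c)
      ≤ (hwSpace (n+2) o c lam).map (LinearMap.mulLeft ℂ (X (Mon.zpow n c))) := by
    intro w hw
    have h' : tl (addFirst lam c) + addFirst lam c 1 ≤ 2 * o + 1 := by
      rw [tl_addFirst]
      unfold addFirst
      simpa using h
    obtain ⟨w', rfl⟩ := X_zpow_dvd _ w hw h'
    exact ⟨w', mem_hwSpace_of_mul lam w' hw, rfl⟩
  exact (Submodule.finrank_mono hle).trans (Submodule.finrank_map_le _ _)

theorem addFirst_addFirst {n : ℕ} (lam : Fin (n+2) → ℕ) (r r' : ℕ) :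
    addFirst (addFirst lam r) r' = addFirst lam (r + r') := by
  funext k
  unfold addFirst
  split_ifs <;> omega

/-- Outer stability. -/
theorem mult_outer_le {n o c : ℕ} (s : ℕ) (lam : Fin (n+2) → ℕ) (h : tl lam + lam 1 ≤ 2 * o + 1) :
    mult (n+2) (o+s) c (addFirst lam (s*c)) ≤ mult (n+2) o c lam := by
  induction s with
  | zero =>
    have : addFirst lam (0 * c) = lam := by
      funext k; unfold addFirst; simp
    rw [this]; exact le_refl _
  | succ s ih =>
    have e : addFirst lam ((s+1)*c) = addFirst (addFirst lam (s*c)) c := by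
      rw [addFirst_addFirst]; congr 1; ring
    rw [e, ← add_assoc]
    refine (mult_outer_step (o := o + s) (addFirst lam (s*c)) ?_).trans ih
    rw [tl_addFirst]
    unfold addFirst
    simp only [one_ne_zero, if_false, add_zero]
    omega

/-- Inner monotonicity. -/
theorem mult_inner_le {n a c : ℕ} (t : ℕ) (lam : Fin (n+2) → ℕ) :
    mult (n+2) a c lam ≤ mult (n+2) a (c+t) (addFirst lam (a*t)) := by
  unfold mult
  let f : hwSpace (n+2) a c lam →ₗ[ℂ] hwSpace (n+2) a (c+t) (addFirst lam (a*t)) :=
    (rename (R := ℂ) (Mon.addZ (n := n) (c := c) t)).toLinearMap.restrict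
      (fun q hq => rename_mem_hwSpace t lam q hq)
  apply LinearMap.finrank_le_finrank_of_injective (f := f)
  intro v w hvw
  have h : rename (Mon.addZ t) (v : MvPolynomial (Mon (n+2) c) ℂ)
      = rename (Mon.addZ t) (w : MvPolynomial (Mon (n+2) c) ℂ) := congrArg Subtype.val hvw
  exact Subtype.ext (rename_injective _ (Mon.addZ_injective t) h)

/-- The general comparison theorem. -/
theorem mult_general {n a b c d : ℕ} (habcd : a * b = c * d) (had : a ≤ d) (lam : Fin (n+2) → ℕ)
    (h : tl lam + lam 1 ≤ 2 * c + 1) : mult (n+2) a b lam ≤ mult (n+2) c d lam := by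
  obtain ⟨t3, rfl⟩ := Nat.exists_eq_add_of_le had
  -- the large inner degree `B = b + t1 = a + t2 = c + s`
  set t1 := a + c + tl lam with ht1
  set t2 := b + c + tl lam with ht2
  set s := a + b + tl lam with hs
  have e2 : b + t1 = a + t2 := by omega
  have e3 : a + t2 = c + s := by omega
  have step1 := mult_inner_le (a := a) (c := b) t1 lam
  have step2 := mult_stable (a := a) t2 (addFirst lam (a * t1)) (by rw [tl_addFirst]; omega)
  have step3 := mult_inner_le (a := a + t2) (c := a) t3 (addFirst lam (a * t1))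
  have step4 := mult_outer_le (o := c) (c := a + t3) s lam h
  rw [e2] at step1
  rw [addFirst_addFirst] at step3
  have e4 : a * t1 + (a + t2) * t3 = s * (a + t3) := by
    have h1 : c * (a + t3) + (a * t1 + (a + t2) * t3) = c * (a + t3) + s * (a + t3) := by
      calc c * (a + t3) + (a * t1 + (a + t2) * t3) = a * b + (a * t1 + (a + t2) * t3) := by
            rw [habcd]
        _ = a * (b + t1) + (a + t2) * t3 := by ring
        _ = a * (a + t2) + (a + t2) * t3 := by rw [e2]
        _ = (a + t2) * (a + t3) := by ring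
        _ = (c + s) * (a + t3) := by rw [e3]
        _ = c * (a + t3) + s * (a + t3) := by ring
    exact Nat.add_left_cancel h1
  rw [e4, e3] at step3
  rw [e3] at step2 step1
  exact step1.trans (step2.trans (step3.trans step4))

end Vale.Agent.P181
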