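import Vale.Agent.P181.Defs

namespace Vale.Agent.P181

open MvPolynomial

noncomputable instance (n d : ℕ) : DecidableEq (Mon n d) := Classical.decEq _

theorem Mon.ext' {n d : ℕ} {m m' : Mon n d} (h : ∀ k, m.exp k = m'.exp k) : m = m' :=
  Mon.ext (funext h)

theorem Mon.le_deg {n d : ℕ} (m : Mon n d) (k : Fin n) : m.exp k ≤ d := by
  have := Finset.single_le_sum (f := m.exp) (fun _ _ => Nat.zero_le _) (Finset.mem_univ k)
  rwa [m.sum_exp] at this

instance (n d : ℕ) : Finite (Mon n d) := by
  let f : Mon n d → (Fin n → Fin (d + 1)) := fun m k => ⟨m.exp k, Nat.lt_succ_of_le (m.le_deg k)⟩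
  apply Finite.of_injective f
  intro m m' h
  apply Mon.ext'
  intro k
  have := congrFun h k
  simpa [f] using congrArg Fin.val this

theorem Mon.move_apply {n d : ℕ} (m : Mon n d) (i j : Fin n) (h : 0 < m.exp j) (k : Fin n) :
    (m.move i j).exp k = (m.exp k - if k = j then 1 else 0) + if k = i then 1 else 0 := by
  unfold Mon.move
  rw [dif_pos h]

theorem Mon.move_of_zero {n d : ℕ} (m : Mon n d) (i j : Fin n) (h : m.exp j = 0) :
    m.move i j = m := by
  unfold Mon.move
  rw [dif_neg (by omega)]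

theorem E_X (n d : ℕ) (i j : Fin n) (m : Mon n d) :
    E n d i j (X m) = (m.exp j : ℂ) • X (m.move i j) := by
  unfold E
  rw [mkDerivation_X]

/-- commutator of `∂/∂X_{m'}` and `E_ij`, where `m' = move m i j`. -/
theorem pderiv_E {n d : ℕ} (i j : Fin n) (m : Mon n d) (h : 0 < m.exp j)
    (w : MvPolynomial (Mon n d) ℂ) :
    pderiv (m.move i j) (E n d i j w) =
      E n d i j (pderiv (m.move i j) w) + (m.exp j : ℂ) • pderiv m w := by
  have key : ⁅pderiv (R := ℂ) (m.move i j), E n d i j⁆ = (m.exp j : ℂ) • pderiv (R := ℂ) m := by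
    apply MvPolynomial.derivation_ext
    intro m''
    rw [Derivation.commutator_apply, E_X, Derivation.map_smul, pderiv_X, pderiv_X,
      Derivation.smul_apply, pderiv_X]
    have hE : E n d i j
        (Pi.single (M := fun _ => MvPolynomial (Mon n d) ℂ) (m.move i j) 1 m'') = 0 := by
      rw [Pi.single_apply]
      split_ifs
      · exact Derivation.map_one_eq_zero _
      · exact map_zero _
    rw [hE, sub_zero]
    by_cases hm : m'' = m
    · subst hm
      simp
    · rw [Pi.single_apply, Pi.single_apply, if_neg hm, smul_zero]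
      by_cases h0 : m''.exp j = 0
      · rw [h0]; simp
      · rw [if_neg, smul_zero]
        intro heq
        apply hm
        apply Mon.ext'
        intro k
        have hk : (m''.move i j).exp k = (m.move i j).exp k := by rw [heq]
        rw [Mon.move_apply _ _ _ (Nat.pos_of_ne_zero h0), Mon.move_apply _ _ _ h] at hk
        by_cases hkj : k = j
        · subst hkj
          simp only [if_true] at hk
          omega
        · simp only [if_neg hkj] at hk
          omega
  have := congrArg (fun D : Derivation ℂ _ _ => D w) key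
  simp only [Derivation.commutator_apply, Derivation.smul_apply] at this
  rw [← this]
  ring

/-- in characteristic zero a variable with vanishing partial derivative does not occur. -/
theorem notMem_vars_of_pderiv_eq_zero {σ : Type*} {m : σ} {w : MvPolynomial σ ℂ}
    (h : pderiv m w = 0) : m ∉ w.vars := by
  classical
  intro hm
  rw [mem_vars_iff_mem_support] at hm
  obtain ⟨s, hs, hms⟩ := hm
  have hsm : s m ≠ 0 := Finsupp.mem_support_iff.mp hms
  have h1 := coeff_pderiv (i := m) w (s - Finsupp.single m 1)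
  rw [h, coeff_zero] at h1
  have h2 : s - Finsupp.single m 1 + Finsupp.single m 1 = s := by
    apply tsub_add_cancel_of_le
    rw [Finsupp.single_le_iff]
    omega
  rw [h2] at h1
  have h3 : coeff s w ≠ 0 := mem_support_iff.mp hs
  have h4 : ((((s - Finsupp.single m 1 : σ →₀ ℕ) m : ℕ) : ℂ)) + 1 ≠ 0 := by
    exact Nat.cast_add_one_ne_zero _
  exact (mul_ne_zero h3 h4) h1.symm


/-- Key lemma: if `w` has `x_1`-weight `l` and is killed by the raising operators `E_{1j}`, `j > 1`,
then every variable `X_m` occurring in `w` satisfies `d ≤ m_0 + l`. -/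
theorem le_exp_zero_add {n d : ℕ} (w : MvPolynomial (Mon (n+2) d) ℂ) (l : ℕ)
    (hwt : IsWeightedHomogeneous (fun m : Mon (n+2) d => m.exp 1) w l)
    (hE : ∀ j : Fin (n+2), 1 < j → E (n+2) d 1 j w = 0)
    (m : Mon (n+2) d) (hm : m ∈ w.vars) : d ≤ m.exp 0 + l := by
  classical
  set S := w.vars.filter (fun m' => m'.exp 0 = m.exp 0) with hS
  have hne : S.Nonempty := ⟨m, by simp [hS, hm]⟩
  obtain ⟨ms, hms, hmax⟩ := Finset.exists_max_image S (fun m' => m'.exp 1) hne
  have hms' : ms ∈ w.vars ∧ ms.exp 0 = m.exp 0 := by simpa [hS] using hms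
  have hzero : ∀ j : Fin (n+2), 1 < j → ms.exp j = 0 := by
    intro j hj
    by_contra hne0
    have hpos : 0 < ms.exp j := Nat.pos_of_ne_zero hne0
    have hj0 : (0 : Fin (n+2)) ≠ j := by
      intro h; rw [← h] at hj; exact absurd hj (by simp)
    have hj1 : (1 : Fin (n+2)) ≠ j := ne_of_lt hj
    have h01 : (0 : Fin (n+2)) ≠ 1 := by simp
    have e0 : (ms.move 1 j).exp 0 = ms.exp 0 := by
      rw [Mon.move_apply _ _ _ hpos, if_neg hj0, if_neg h01]; simp
    have e1 : (ms.move 1 j).exp 1 = ms.exp 1 + 1 := by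
      rw [Mon.move_apply _ _ _ hpos, if_neg hj1, if_pos rfl]; simp
    have hnot : ms.move 1 j ∉ w.vars := by
      intro hmem
      have : ms.move 1 j ∈ S := by simp [hS, hmem, e0, hms'.2]
      have := hmax _ this
      omega
    have hp := pderiv_E 1 j ms hpos w
    rw [hE j hj, map_zero, pderiv_eq_zero_of_notMem_vars hnot, map_zero, zero_add] at hp
    have hp' : pderiv ms w = 0 := by
      have hc : (ms.exp j : ℂ) ≠ 0 := by exact_mod_cast hne0
      exact (smul_eq_zero.mp hp.symm).resolve_left hc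
    exact notMem_vars_of_pderiv_eq_zero hp' hms'.1
  have hsum : ms.exp 0 + ms.exp 1 = d := by
    have := ms.sum_exp
    rw [Fin.sum_univ_succ, Fin.sum_univ_succ] at this
    have hz : ∑ k : Fin n, ms.exp k.succ.succ = 0 := by
      apply Finset.sum_eq_zero
      intro k _
      apply hzero
      rw [Fin.lt_def]
      simp
    rw [hz] at this
    simpa using this
  obtain ⟨s, hs, hss⟩ := (mem_vars_iff_mem_support _).mp hms'.1
  have hw1 := hwt (mem_support_iff.mp hs)
  have hle : ms.exp 1 ≤ Finsupp.weight (fun m : Mon (n+2) d => m.exp 1) s :=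
    Finsupp.le_weight_of_ne_zero' (w := fun m : Mon (n+2) d => m.exp 1)
      (Finsupp.mem_support_iff.mp hss)
  rw [hw1] at hle
  omega



theorem weight_mapDomain {σ τ : Type*} (f : σ → τ) (u : τ → ℕ) (s : σ →₀ ℕ) :
    Finsupp.weight u (Finsupp.mapDomain f s) = Finsupp.weight (u ∘ f) s := by
  rw [Finsupp.weight_apply, Finsupp.weight_apply, Finsupp.sum_mapDomain_index]
  · rfl
  · intro b; simp
  · intro b m₁ m₂; simp [add_mul]

theorem isWeightedHomogeneous_rename_iff {σ τ : Type*} (f : σ → τ) (hf : Function.Injective f)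
    (u : τ → ℕ) (q : MvPolynomial σ ℂ) (k : ℕ) :
    IsWeightedHomogeneous u (rename f q) k ↔ IsWeightedHomogeneous (u ∘ f) q k := by
  constructor
  · intro h s hs
    rw [← coeff_rename_mapDomain f hf] at hs
    rw [← weight_mapDomain]
    exact h hs
  · intro h s' hs'
    obtain ⟨s, rfl, hs⟩ := coeff_rename_ne_zero f q s' hs'
    rw [weight_mapDomain]
    exact h hs

theorem weight_add_const {σ : Type*} (u : σ → ℕ) (t : ℕ) (s : σ →₀ ℕ) :
    Finsupp.weight (fun m => u m + t) s = Finsupp.weight u s + t * Finsupp.weight (1 : σ → ℕ) s := by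
  simp only [Finsupp.weight_apply, Finsupp.sum, smul_eq_mul, mul_add, Finset.sum_add_distrib,
    Pi.one_apply, mul_one, Finset.mul_sum]
  congr 1
  apply Finset.sum_congr rfl
  intro x _
  ring

/-- multiplication of a monomial by `x_0 ^ t`. -/
def Mon.addZ {n c : ℕ} (t : ℕ) (m : Mon (n+2) c) : Mon (n+2) (c+t) :=
  ⟨fun k => m.exp k + if k = 0 then t else 0, by
    rw [Finset.sum_add_distrib, m.sum_exp]; simp⟩

theorem Mon.addZ_injective {n c : ℕ} (t : ℕ) :
    Function.Injective (Mon.addZ t : Mon (n+2) c → Mon (n+2) (c+t)) := by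
  intro m m' h
  apply Mon.ext'
  intro k
  have hk : (m.addZ t).exp k = (m'.addZ t).exp k := by rw [h]
  simpa [Mon.addZ] using hk

theorem Mon.addZ_exp {n c : ℕ} (t : ℕ) (m : Mon (n+2) c) (k : Fin (n+2)) :
    (m.addZ t).exp k = m.exp k + if k = 0 then t else 0 := rfl

theorem Mon.move_addZ {n c : ℕ} (t : ℕ) (m : Mon (n+2) c) (i j : Fin (n+2)) (hj : j ≠ 0) :
    (m.addZ t).move i j = (m.move i j).addZ t := by
  have hj' : (m.addZ t).exp j = m.exp j := by rw [Mon.addZ_exp, if_neg hj, add_zero]
  by_cases h : m.exp j = 0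
  · rw [Mon.move_of_zero _ _ _ h, Mon.move_of_zero _ _ _ (hj'.trans h)]
  · have hpos : 0 < m.exp j := Nat.pos_of_ne_zero h
    apply Mon.ext'
    intro k
    rw [Mon.move_apply _ _ _ (hj'.symm ▸ hpos), Mon.addZ_exp, Mon.addZ_exp,
      Mon.move_apply _ _ _ hpos]
    by_cases hkj : k = j
    · subst hkj
      simp only [if_true, if_neg hj]
      omega
    · simp only [if_neg hkj]
      omega

theorem E_rename_addZ {n c : ℕ} (t : ℕ) (i j : Fin (n+2)) (hj : j ≠ 0)
    (q : MvPolynomial (Mon (n+2) c) ℂ) :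
    E (n+2) (c+t) i j (rename (Mon.addZ t) q) = rename (Mon.addZ t) (E (n+2) c i j q) := by
  induction q using MvPolynomial.induction_on with
  | C r => simp
  | add p q hp hq => simp only [map_add, hp, hq]
  | mul_X p m hp =>
    simp only [map_mul, rename_X, Derivation.leibniz, hp, E_X, Mon.move_addZ t m i j hj, map_add,
      smul_eq_mul, map_smul]
    rw [Mon.addZ_exp, if_neg hj, add_zero]



/-- add `r` to the first entry of a weight -/
def addFirst {n : ℕ} (lam : Fin (n+2) → ℕ) (r : ℕ) : Fin (n+2) → ℕ :=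
  fun k => lam k + if k = 0 then r else 0

instance (n a d : ℕ) (lam : Fin n → ℕ) : FiniteDimensional ℂ (hwSpace n a d lam) := by
  have h : hwSpace n a d lam ≤ restrictTotalDegree (Mon n d) ℂ a := by
    intro w hw
    rw [mem_restrictTotalDegree]
    exact hw.1.totalDegree_le
  exact Submodule.finiteDimensional_of_le h

theorem exp_comp_addZ {n c : ℕ} (t : ℕ) (i : Fin (n+2)) :
    (fun m : Mon (n+2) (c+t) => m.exp i) ∘ (Mon.addZ t : Mon (n+2) c → Mon (n+2) (c+t))
      = fun m => m.exp i + if i = 0 then t else 0 := rfl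

theorem rename_mem_hwSpace {n a c : ℕ} (t : ℕ) (lam : Fin (n+2) → ℕ)
    (q : MvPolynomial (Mon (n+2) c) ℂ) (hq : q ∈ hwSpace (n+2) a c lam) :
    rename (Mon.addZ t) q ∈ hwSpace (n+2) a (c+t) (addFirst lam (a*t)) := by
  obtain ⟨h1, h2, h3⟩ := hq
  refine ⟨h1.rename_isHomogeneous, fun i => ?_, fun i j hij => ?_⟩
  · rw [isWeightedHomogeneous_rename_iff _ (Mon.addZ_injective t), exp_comp_addZ]
    intro s hs
    rw [weight_add_const, h2 i hs, h1 hs]
    unfold addFirst
    split_ifs <;> ring
  · have hj : j ≠ 0 := by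
      intro h; rw [h] at hij; exact absurd hij (by simp)
    rw [E_rename_addZ t i j hj, h3 i j hij, map_zero]

theorem exists_rename_of_mem_hwSpace {n a c : ℕ} (t : ℕ) (mu : Fin (n+2) → ℕ) (hmu : mu 1 ≤ c)
    (w : MvPolynomial (Mon (n+2) (c+t)) ℂ) (hw : w ∈ hwSpace (n+2) a (c+t) mu) :
    ∃ q : MvPolynomial (Mon (n+2) c) ℂ, rename (Mon.addZ t) q = w := by
  obtain ⟨h1, h2, h3⟩ := hw
  apply exists_rename_eq_of_vars_subset_range _ _ (Mon.addZ_injective t)
  intro m hm
  have hle := le_exp_zero_add w (mu 1) (h2 1) (fun j hj => h3 1 j hj) m hm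
  have ht : t ≤ m.exp 0 := by omega
  refine ⟨⟨fun k => m.exp k - if k = 0 then t else 0, ?_⟩, ?_⟩
  · have h1 : ∑ k, (m.exp k - if k = 0 then t else 0)
        = (∑ k, m.exp k) - ∑ k : Fin (n+2), if k = 0 then t else 0 := by
      apply Finset.sum_tsub_distrib
      intro k _
      split_ifs with hk
      · subst hk; exact ht
      · exact Nat.zero_le _
    rw [h1, m.sum_exp]
    simp
  · apply Mon.ext'
    intro k
    rw [Mon.addZ_exp]
    by_cases hk : k = 0
    · subst hk; simp only [if_true]; omega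
    · simp [hk]

theorem map_rename_hwSpace {n a c : ℕ} (t : ℕ) (lam : Fin (n+2) → ℕ) (hlam : lam 1 ≤ c) :
    (hwSpace (n+2) a c lam).map (rename (Mon.addZ t)).toLinearMap
      = hwSpace (n+2) a (c+t) (addFirst lam (a*t)) := by
  apply le_antisymm
  · rintro _ ⟨q, hq, rfl⟩
    exact rename_mem_hwSpace t lam q hq
  · intro w hw
    have hmu : addFirst lam (a*t) 1 ≤ c := by
      unfold addFirst; simpa using hlam
    obtain ⟨q, rfl⟩ := exists_rename_of_mem_hwSpace t _ hmu w hw
    refine ⟨q, ?_, rfl⟩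
    obtain ⟨h1, h2, h3⟩ := hw
    have h1' : q.IsHomogeneous a :=
      (IsHomogeneous.rename_isHomogeneous_iff (Mon.addZ_injective t)).mp h1
    refine ⟨h1', fun i => ?_, fun i j hij => ?_⟩
    · have := h2 i
      rw [isWeightedHomogeneous_rename_iff _ (Mon.addZ_injective t), exp_comp_addZ] at this
      intro s hs
      have h4 := this hs
      rw [weight_add_const, h1' hs] at h4
      unfold addFirst at h4
      split_ifs at h4 with hi
      · have : t * a = a * t := mul_comm _ _
        omega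
      · simpa using h4
    · have hj : j ≠ 0 := by
        intro h; rw [h] at hij; exact absurd hij (by simp)
      have := h3 i j hij
      rw [E_rename_addZ t i j hj] at this
      exact (rename_eq_zero_iff_of_injective _ (Mon.addZ_injective t)).mp this

/-- Inner stability: for `lam_1 ≤ c` the multiplicity does not change when the inner degree `c`
is raised to `c + t` and the first row of `lam` is lengthened by `a * t`. -/
theorem mult_inner {n a c : ℕ} (t : ℕ) (lam : Fin (n+2) → ℕ) (hlam : lam 1 ≤ c) :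
    mult (n+2) a (c+t) (addFirst lam (a*t)) = mult (n+2) a c lam := by
  unfold mult
  rw [← map_rename_hwSpace t lam hlam]
  exact (LinearEquiv.finrank_eq (Submodule.equivMapOfInjective _
    (rename_injective _ (Mon.addZ_injective t)) _)).symm



theorem hwSpace_eq_bot_of_lt {n a c : ℕ} (t : ℕ) (mu : Fin (n+2) → ℕ) (hmu : mu 1 ≤ c)
    (h0 : mu 0 < a * t) : hwSpace (n+2) a (c+t) mu = ⊥ := by
  rw [eq_bot_iff]
  intro w hw
  obtain ⟨q, rfl⟩ := exists_rename_of_mem_hwSpace t _ hmu w hw
  obtain ⟨h1, h2, h3⟩ := hw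
  have h1' : q.IsHomogeneous a :=
    (IsHomogeneous.rename_isHomogeneous_iff (Mon.addZ_injective t)).mp h1
  rw [Submodule.mem_bot]
  by_contra hne
  have hq : q ≠ 0 := by
    intro h; apply hne; rw [h, map_zero]
  obtain ⟨s, hs⟩ := exists_coeff_ne_zero hq
  have := h2 0
  rw [isWeightedHomogeneous_rename_iff _ (Mon.addZ_injective t), exp_comp_addZ] at this
  have h4 := this hs
  rw [weight_add_const, h1' hs, if_pos rfl] at h4
  have : t * a = a * t := mul_comm _ _
  omega

/-- the monomial `x_0 ^ c`. -/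
def Mon.zpow (n c : ℕ) : Mon (n+2) c :=
  ⟨fun k => if k = 0 then c else 0, by simp⟩

theorem E_X_zpow (n c : ℕ) (i j : Fin (n+2)) (hj : j ≠ 0) :
    E (n+2) c i j (X (Mon.zpow n c)) = 0 := by
  rw [E_X]
  have : (Mon.zpow n c).exp j = 0 := by
    unfold Mon.zpow; simp [hj]
  rw [this]; simp

theorem mul_mem_hwSpace {n o c : ℕ} (s : ℕ) (lam : Fin (n+2) → ℕ)
    (w : MvPolynomial (Mon (n+2) c) ℂ) (hw : w ∈ hwSpace (n+2) o c lam) :
    X (Mon.zpow n c) ^ s * w ∈ hwSpace (n+2) (o+s) c (addFirst lam (s*c)) := by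
  obtain ⟨h1, h2, h3⟩ := hw
  refine ⟨?_, fun i => ?_, fun i j hij => ?_⟩
  · have := ((isHomogeneous_X ℂ (Mon.zpow n c)).pow s).mul h1
    have he : 1 * s + o = o + s := by ring
    rwa [he] at this
  · have := ((isWeightedHomogeneous_X ℂ (fun m : Mon (n+2) c => m.exp i) (Mon.zpow n c)).pow s).mul
      (h2 i)
    have he : s • (Mon.zpow n c).exp i + lam i = addFirst lam (s*c) i := by
      unfold addFirst Mon.zpow
      by_cases hi : i = 0
      · simp [hi, add_comm]
      · simp [hi]
    rwa [he] at this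
  · have hj : j ≠ 0 := by
      intro h; rw [h] at hij; exact absurd hij (by simp)
    rw [Derivation.leibniz, h3 i j hij, Derivation.leibniz_pow, E_X_zpow n c i j hj]
    simp

/-- Outer monotonicity: multiplying by `(x_0^c)^s` embeds highest weight vectors. -/
theorem mult_outer {n o c : ℕ} (s : ℕ) (lam : Fin (n+2) → ℕ) :
    mult (n+2) o c lam ≤ mult (n+2) (o+s) c (addFirst lam (s*c)) := by
  unfold mult
  let f : hwSpace (n+2) o c lam →ₗ[ℂ] hwSpace (n+2) (o+s) c (addFirst lam (s*c)) :=
    (LinearMap.mulLeft ℂ (X (Mon.zpow n c) ^ s)).restrict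
      (fun w hw => mul_mem_hwSpace s lam w hw)
  apply LinearMap.finrank_le_finrank_of_injective (f := f)
  intro v w hvw
  have h : X (Mon.zpow n c) ^ s * (v : MvPolynomial (Mon (n+2) c) ℂ)
      = X (Mon.zpow n c) ^ s * (w : MvPolynomial (Mon (n+2) c) ℂ) := congrArg Subtype.val hvw
  have hX : (X (Mon.zpow n c) : MvPolynomial (Mon (n+2) c) ℂ) ^ s ≠ 0 := pow_ne_zero _ (X_ne_zero _)
  exact Subtype.ext (mul_left_cancel₀ hX h)

/-- General comparison: for `a ≤ c`... the Foulkes inequality for `(a, c+t)` at the weight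
`lam + a t e_0` follows from the one for `(a, c)` at `lam`, if `lam_1 ≤ c`. -/
theorem foulkes_step {n a c : ℕ} (t : ℕ) (lam : Fin (n+2) → ℕ) (hlam : lam 1 ≤ c)
    (h : mult (n+2) a c lam ≤ mult (n+2) c a lam) :
    mult (n+2) a (c+t) (addFirst lam (a*t)) ≤ mult (n+2) (c+t) a (addFirst lam (a*t)) := by
  rw [mult_inner t lam hlam]
  refine h.trans ?_
  have := mult_outer (o := c) (c := a) t lam
  rwa [mul_comm] at this

/-- every weight `mu` is either of the form `lam + r e_0` or has `mu_0 < r`. -/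
theorem addFirst_sub {n : ℕ} (mu : Fin (n+2) → ℕ) (r : ℕ) (h : r ≤ mu 0) :
    addFirst (fun k => mu k - if k = 0 then r else 0) r = mu := by
  funext k
  unfold addFirst
  by_cases hk : k = 0
  · subst hk; simp only [if_true]; omega
  · simp [hk]

theorem foulkes_reduce {n a c b : ℕ} (hcb : c ≤ b) (mu : Fin (n+2) → ℕ) (hmu : mu 1 ≤ c)
    (h : ∀ lam : Fin (n+2) → ℕ, mult (n+2) a c lam ≤ mult (n+2) c a lam) :
    mult (n+2) a b mu ≤ mult (n+2) b a mu := by
  obtain ⟨t, rfl⟩ := Nat.exists_eq_add_of_le hcb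
  by_cases h0 : a * t ≤ mu 0
  · have := foulkes_step (a := a) (c := c) t (fun k => mu k - if k = 0 then a * t else 0)
      (by simpa using hmu) (h _)
    rwa [addFirst_sub mu _ h0] at this
  · have : mult (n+2) a (c+t) mu = 0 := by
      unfold mult
      rw [hwSpace_eq_bot_of_lt t mu hmu (by omega)]
      simp
    rw [this]
    exact Nat.zero_le _


end Vale.Agent.P181
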