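import Vale.Agent.P181.Core3

/-!
# Foulkes' inequality in the stable range
-/

namespace Vale.Agent.P181

open MvPolynomial

theorem sym_mem_wle {n b : ℕ} (c c' : Fin b) (l : Fin (n+2)) :
    (sym c' l : Q n b) ∈ wle (wc c) (if c' = c then 1 else 0) := by
  unfold sym
  by_cases hl : l = 0
  · rw [if_pos hl]
    exact wle_mono _ (Nat.zero_le _) (one_mem_wle _)
  · rw [if_neg hl]
    have := X_mem_wle (wc (n := n) c) (c', l)
    unfold wc at this ⊢
    simpa [hl] using this

theorem wmon_mem_wle {n b : ℕ} (c : Fin b) (w : Fin b → Fin (n+2)) :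
    wmon w ∈ wle (wc (n := n) c) 1 := by
  unfold wmon
  have := prod_mem_graded (wle (wc (n := n) c)) (one_mem_wle _) (mul_mem_wle _) Finset.univ
    (fun c' => sym c' (w c')) (fun c' => if c' = c then 1 else 0)
    (fun c' _ => sym_mem_wle c c' (w c'))
  simpa using this

theorem evX_mem_wle {n b : ℕ} (c : Fin b) (m : Mon (n+2) b) : evX m ∈ wle (wc (n := n) c) 1 := by
  unfold evX esum
  apply Submodule.smul_mem
  apply Submodule.sum_mem
  intro w _
  split_ifs
  · exact wmon_mem_wle c w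
  · exact Submodule.zero_mem _

/-- the image of a polynomial of degree `a` has all column degrees at most `a`. -/
theorem ev_mem_wle {n b a : ℕ} (c : Fin b) (y : MvPolynomial (Mon (n+2) b) ℂ)
    (hy : y.IsHomogeneous a) : ev n b y ∈ wle (wc (n := n) c) a :=
  aeval_mem_graded (wle (wc (n := n) c)) (one_mem_wle _) (mul_mem_wle _) 1 evX
    (fun m => evX_mem_wle c m) y a hy

theorem sym_weight {n b : ℕ} (i : Fin (n+2)) (hi : i ≠ 0) (c : Fin b) (l : Fin (n+2)) :
    IsWeightedHomogeneous (wl (b := b) i) (sym c l : Q n b) (if l = i then 1 else 0) := by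
  unfold sym
  by_cases hl : l = 0
  · rw [if_pos hl, if_neg (by rw [hl]; exact Ne.symm hi)]
    exact isWeightedHomogeneous_one _ _
  · rw [if_neg hl]
    exact isWeightedHomogeneous_X ℂ (wl (b := b) i) (c, l)

theorem evX_weight {n b : ℕ} (i : Fin (n+2)) (hi : i ≠ 0) (m : Mon (n+2) b) :
    IsWeightedHomogeneous (wl (b := b) i) (evX m) (m.exp i) := by
  unfold evX esum
  apply (weightedHomogeneousSubmodule ℂ (wl (b := b) i) (m.exp i)).smul_mem
  apply Submodule.sum_mem
  intro w _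
  split_ifs with h
  · rw [← h, cont_exp]
    exact IsWeightedHomogeneous.prod Finset.univ _ _ (fun c _ => sym_weight i hi c (w c))
  · exact Submodule.zero_mem _

theorem ev_weight {n b : ℕ} (i : Fin (n+2)) (hi : i ≠ 0) (y : MvPolynomial (Mon (n+2) b) ℂ) (k : ℕ)
    (hy : IsWeightedHomogeneous (fun m : Mon (n+2) b => m.exp i) y k) :
    IsWeightedHomogeneous (wl (b := b) i) (ev n b y) k :=
  aeval_mem_graded (weightedHomogeneousSubmodule ℂ (wl (b := b) i))
    (isWeightedHomogeneous_one _ _) (fun _ _ _ _ hx hy => IsWeightedHomogeneous.mul hx hy)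
    (fun m : Mon (n+2) b => m.exp i) evX (fun m => evX_weight i hi m) y k hy

theorem weight_zero_of {n d o : ℕ} (mu : Fin (n+2) → ℕ) (w : MvPolynomial (Mon (n+2) d) ℂ)
    (ho : w.IsHomogeneous o) (hsum : ∑ i, mu i = d * o)
    (h : ∀ i, i ≠ 0 → IsWeightedHomogeneous (fun m : Mon (n+2) d => m.exp i) w (mu i)) :
    IsWeightedHomogeneous (fun m : Mon (n+2) d => m.exp 0) w (mu 0) := by
  intro u hu
  have h1 := sum_weight_exp u
  rw [ho hu, ← hsum, ← Finset.add_sum_erase _ _ (Finset.mem_univ 0),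
    ← Finset.add_sum_erase (a := (0 : Fin (n+2))) _ mu (Finset.mem_univ 0)] at h1
  have h2 : ∑ x ∈ Finset.univ.erase (0 : Fin (n+2)),
      Finsupp.weight (fun m : Mon (n+2) d => m.exp x) u = ∑ x ∈ Finset.univ.erase 0, mu x := by
    apply Finset.sum_congr rfl
    intro x hx
    exact h x (Finset.ne_of_mem_erase hx) hu
  omega

theorem sum_eq_of_mem_hwSpace {n o d : ℕ} (mu : Fin n → ℕ) (w : MvPolynomial (Mon n d) ℂ)
    (hw : w ∈ hwSpace n o d mu) (hne : w ≠ 0) : ∑ i, mu i = d * o := by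
  obtain ⟨u, hu⟩ := exists_coeff_ne_zero hne
  rw [← hw.1 hu, ← sum_weight_exp u]
  apply Finset.sum_congr rfl
  intro i _
  exact (hw.2.1 i hu).symm

theorem weight_tw {n b : ℕ} (u : Mon (n+2) b →₀ ℕ) :
    Finsupp.weight tw u
      = ∑ i, if i = 0 then 0 else Finsupp.weight (fun m : Mon (n+2) b => m.exp i) u := by
  have : ∀ i : Fin (n+2), (if i = 0 then 0 else Finsupp.weight (fun m : Mon (n+2) b => m.exp i) u)
      = ∑ m ∈ u.support, u m * (if i = 0 then 0 else m.exp i) := by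
    intro i
    split_ifs
    · simp
    · rw [Finsupp.weight_apply, Finsupp.sum]; rfl
  rw [Finset.sum_congr rfl (fun i _ => this i), Finset.sum_comm, Finsupp.weight_apply, Finsupp.sum]
  apply Finset.sum_congr rfl
  intro m _
  rw [← Finset.mul_sum]
  rfl

theorem mem_T_of_mem_hwSpace {n o b : ℕ} (mu : Fin (n+2) → ℕ) (w : MvPolynomial (Mon (n+2) b) ℂ)
    (hw : w ∈ hwSpace (n+2) o b mu) : w ∈ T n b o (tl mu) := by
  refine ⟨hw.1, ?_⟩
  intro u hu
  rw [weight_tw]
  unfold tl
  apply Finset.sum_congr rfl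
  intro i _
  split_ifs
  · rfl
  · exact hw.2.1 i hu

/-- the Foulkes-Howe map preserves highest weight vectors. -/
theorem Phi_mem_hwSpace {n b : ℕ} (mu : Fin (n+2) → ℕ) (y : MvPolynomial (Mon (n+2) b) ℂ)
    (hy : y ∈ hwSpace (n+2) b b mu) : Phi n b y ∈ hwSpace (n+2) b b mu := by
  by_cases hne : y = 0
  · rw [hne, map_zero]; exact Submodule.zero_mem _
  have hsum := sum_eq_of_mem_hwSpace mu y hy hne
  have hwts : ∀ i, i ≠ 0 →
      IsWeightedHomogeneous (fun m : Mon (n+2) b => m.exp i) (Phi n b y) (mu i) :=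
    fun i hi => kap_weight i hi _ _ (ev_weight i hi y _ (hy.2.1 i))
  refine ⟨kap_isHomogeneous _, fun i => ?_, fun i j hij => ?_⟩
  · by_cases hi : i = 0
    · rw [hi]
      exact weight_zero_of mu _ (kap_isHomogeneous _) hsum hwts
    · exact hwts i hi
  · have hj : j ≠ 0 := by
      intro h; rw [h] at hij; exact absurd hij (by simp)
    rw [Phi_apply, ← kap_D i j (ne_of_lt hij) hj _ (fun c => ev_mem_wle c y hy.1),
      ← ev_E i j (ne_of_lt hij) hj, hy.2.2 i j hij, map_zero, map_zero]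

theorem mem_hwSpace_of_rename {n a c : ℕ} (t : ℕ) (lam : Fin (n+2) → ℕ)
    (q : MvPolynomial (Mon (n+2) c) ℂ)
    (hw : rename (Mon.addZ t) q ∈ hwSpace (n+2) a (c+t) (addFirst lam (a*t))) :
    q ∈ hwSpace (n+2) a c lam := by
  obtain ⟨h1, h2, h3⟩ := hw
  have h1' : q.IsHomogeneous a :=
    (IsHomogeneous.rename_isHomogeneous_iff (Mon.addZ_injective t)).mp h1
  refine ⟨h1', fun i => ?_, fun i j hij => ?_⟩
  · have := h2 i
    rw [isWeightedHomogeneous_rename_iff _ (Mon.addZ_injective t), exp_comp_addZ] at this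
    intro s hs
    have h4 := this hs
    rw [weight_add_const, h1' hs] at h4
    unfold addFirst at h4
    split_ifs at h4 with hi
    · have : t * a = a * t := mul_comm _ _
      omega
    · simpa using h4
  · have hj : j ≠ 0 := by
      intro h; rw [h] at hij; exact absurd hij (by simp)
    have := h3 i j hij
    rw [E_rename_addZ t i j hj] at this
    exact (rename_eq_zero_iff_of_injective _ (Mon.addZ_injective t)).mp this

theorem tl_addFirst {n : ℕ} (lam : Fin (n+2) → ℕ) (r : ℕ) : tl (addFirst lam r) = tl lam := by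
  apply tl_congr
  intro k hk
  unfold addFirst
  simp [hk]

theorem stable_aux {n a : ℕ} (t : ℕ) (lam : Fin (n+2) → ℕ)
    (y : MvPolynomial (Mon (n+2) (a+t)) ℂ) (hy : y ∈ hwSpace (n+2) a (a+t) lam) :
    Phi n (a+t) (X (Mon.zpow n (a+t)) ^ t * y)
      ∈ (hwSpace (n+2) (a+t) a lam).map (rename (Mon.addZ t)).toLinearMap := by
  have h1 := mul_mem_hwSpace t lam y hy
  have h2 := Phi_mem_hwSpace _ _ h1
  have h3 : ∀ c, ev n (a+t) (X (Mon.zpow n (a+t)) ^ t * y) ∈ wle (wc (n := n) c) a := by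
    intro c
    rw [map_mul, map_pow, ev_X, evX_zpow, ← C_pow, ← smul_eq_C_mul]
    exact Submodule.smul_mem _ _ (ev_mem_wle c y hy.1)
  obtain ⟨q, hq⟩ := kap_mem_range t _ h3
  refine ⟨q, ?_, hq⟩
  apply mem_hwSpace_of_rename t
  rw [hq, mul_comm (a+t) t]
  exact h2

/-- Foulkes' inequality for the multiplicities of all `lam` whose rows below the first one have
total length at most `b = a + t`. -/
theorem mult_stable {n a : ℕ} (t : ℕ) (lam : Fin (n+2) → ℕ) (hk : tl lam ≤ a + t) :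
    mult (n+2) a (a+t) lam ≤ mult (n+2) (a+t) a lam := by
  unfold mult
  have e := LinearEquiv.finrank_eq (Submodule.equivMapOfInjective
    (rename (R := ℂ) (Mon.addZ (n := n) (c := a) t)).toLinearMap
    (rename_injective _ (Mon.addZ_injective t)) (hwSpace (n+2) (a+t) a lam))
  rw [e]
  let f : hwSpace (n+2) a (a+t) lam →ₗ[ℂ]
      (hwSpace (n+2) (a+t) a lam).map (rename (R := ℂ) (Mon.addZ (n := n) (c := a) t)).toLinearMap :=
    (Phi n (a+t) ∘ₗ LinearMap.mulLeft ℂ (X (Mon.zpow n (a+t)) ^ t)).restrict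
      (fun y hy => stable_aux t lam y hy)
  apply LinearMap.finrank_le_finrank_of_injective (f := f)
  rw [← LinearMap.ker_eq_bot, LinearMap.ker_eq_bot']
  intro y hy
  have h : Phi n (a+t) (X (Mon.zpow n (a+t)) ^ t * (y : MvPolynomial (Mon (n+2) (a+t)) ℂ)) = 0 :=
    congrArg Subtype.val hy
  have h1 := mem_T_of_mem_hwSpace _ _ (mul_mem_hwSpace t lam (y : MvPolynomial (Mon (n+2) (a+t)) ℂ) y.2)
  rw [tl_addFirst] at h1
  have h2 := Phi_inj hk _ h1 h
  have hX : (X (Mon.zpow n (a+t)) : MvPolynomial (Mon (n+2) (a+t)) ℂ) ^ t ≠ 0 :=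
    pow_ne_zero _ (X_ne_zero _)
  exact Subtype.ext ((mul_eq_zero.mp h2).resolve_left hX)

theorem tl_eq_sum_succ {n : ℕ} (lam : Fin (n+2) → ℕ) : tl lam = ∑ i : Fin (n+1), lam i.succ := by
  unfold tl
  rw [Fin.sum_univ_succ]
  simp [Fin.succ_ne_zero]

end Vale.Agent.P181
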