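import Vale.Agent.P181.Stability

/-!
# Words, contents and the evaluation map of the Foulkes-Howe construction

We work with `b` columns.  A word `w : Fin b → Fin n` has a content `cont w : Mon n b`.
-/

namespace Vale.Agent.P181

open MvPolynomial

/-- Leibniz rule for finite products. -/
theorem deriv_prod {A : Type*} [CommRing A] [Algebra ℂ A] (Dv : Derivation ℂ A A)
    {ι : Type*} [DecidableEq ι] (s : Finset ι) (f : ι → A) :
    Dv (∏ c ∈ s, f c) = ∑ c ∈ s, Dv (f c) * ∏ c' ∈ s.erase c, f c' := by
  induction s using Finset.induction_on with
  | empty => simp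
  | insert a s ha ih =>
    rw [Finset.prod_insert ha, Derivation.leibniz, ih, Finset.sum_insert ha,
      Finset.erase_insert ha, smul_eq_mul, smul_eq_mul, Finset.mul_sum, add_comm]
    congr 1
    · ring
    · apply Finset.sum_congr rfl
      intro c hc
      have hca : a ≠ c := fun h => ha (h ▸ hc)
      rw [Finset.erase_insert_of_ne hca, Finset.prod_insert]
      · ring
      · intro h
        exact ha (Finset.mem_of_mem_erase h)

/-- the content of a word: the number of occurrences of each letter. -/
def cont {n b : ℕ} (w : Fin b → Fin n) : Mon n b :=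
  ⟨fun i => ∑ c, if w c = i then 1 else 0, by
    rw [Finset.sum_comm]; simp⟩

theorem cont_exp {n b : ℕ} (w : Fin b → Fin n) (i : Fin n) :
    (cont w).exp i = ∑ c, if w c = i then 1 else 0 := rfl

theorem cont_update {n b : ℕ} (w : Fin b → Fin n) (c : Fin b) (i k : Fin n) :
    (cont (Function.update w c i)).exp k + (if w c = k then 1 else 0)
      = (cont w).exp k + (if i = k then 1 else 0) := by
  rw [cont_exp, cont_exp, ← Finset.add_sum_erase _ _ (Finset.mem_univ c),
    ← Finset.add_sum_erase (a := c) _ (fun c => if w c = k then 1 else 0) (Finset.mem_univ c)]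
  have : ∑ x ∈ Finset.univ.erase c, (if Function.update w c i x = k then 1 else 0)
      = ∑ x ∈ Finset.univ.erase c, (if w x = k then 1 else 0) := by
    apply Finset.sum_congr rfl
    intro x hx
    rw [Function.update_of_ne (Finset.ne_of_mem_erase hx)]
  rw [this, Function.update_self]
  ring

/-- the involution on words exchanging the letters `i` and `j` at position `c`. -/
def swapAt {n b : ℕ} (c : Fin b) (i j : Fin n) : (Fin b → Fin n) ≃ (Fin b → Fin n) :=
  Function.Involutive.toPerm (fun w => Function.update w c (Equiv.swap i j (w c))) (by
    intro w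
    simp)

theorem swapAt_apply {n b : ℕ} (c : Fin b) (i j : Fin n) (w : Fin b → Fin n) :
    swapAt c i j w = Function.update w c (Equiv.swap i j (w c)) := rfl

/-- Double counting of pairs (word, position). -/
theorem word_swap {n b : ℕ} {A : Type*} [AddCommMonoid A] (F : (Fin b → Fin n) → A)
    (m m' : Mon n b) (i j : Fin n)
    (hrel : ∀ k, m'.exp k + (if j = k then 1 else 0) = m.exp k + (if i = k then 1 else 0)) :
    ∑ w, (if cont w = m then ∑ c, (if w c = j then F (Function.update w c i) else 0) else 0)
      = m'.exp i • ∑ w, if cont w = m' then F w else 0 := by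
  have hR : m'.exp i • ∑ w, (if cont w = m' then F w else 0)
      = ∑ w, (if cont w = m' then ∑ c, (if w c = i then F w else 0) else 0) := by
    rw [Finset.smul_sum]
    apply Finset.sum_congr rfl
    intro w _
    split_ifs with h
    · rw [← h, cont_exp, Finset.sum_smul]
      apply Finset.sum_congr rfl
      intro c _
      split_ifs <;> simp
    · simp
  rw [hR]
  have hL : ∀ (G : (Fin b → Fin n) → Fin b → A) (m0 : Mon n b),
      ∑ w, (if cont w = m0 then ∑ c, G w c else 0) = ∑ c, ∑ w, if cont w = m0 then G w c else 0 := by
    intro G m0
    rw [Finset.sum_comm]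
    apply Finset.sum_congr rfl
    intro w _
    split_ifs <;> simp
  rw [hL, hL]
  apply Finset.sum_congr rfl
  intro c _
  apply Fintype.sum_equiv (swapAt c i j)
  intro w
  rw [swapAt_apply, Function.update_self]
  by_cases hw : w c = j
  · rw [hw, Equiv.swap_apply_right, if_pos rfl, if_pos rfl]
    have hiff : cont w = m ↔ cont (Function.update w c i) = m' := by
      constructor
      · intro h
        apply Mon.ext'
        intro k
        have h1 := cont_update w c i k
        have h2 := hrel k
        rw [h, hw] at h1
        omega
      · intro h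
        apply Mon.ext'
        intro k
        have h1 := cont_update w c i k
        have h2 := hrel k
        rw [h, hw] at h1
        omega
    by_cases h : cont w = m
    · rw [if_pos h, if_pos (hiff.mp h)]
    · rw [if_neg h, if_neg (fun h' => h (hiff.mpr h'))]
  · have : Equiv.swap i j (w c) ≠ i := by
      intro h
      apply hw
      have := congrArg (Equiv.swap i j) h
      simpa using this
    rw [if_neg hw, if_neg this]
    simp

/-- the product of the factorials of the exponents. -/
def Mon.fact {n d : ℕ} (m : Mon n d) : ℕ := ∏ k, (m.exp k).factorial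

theorem Mon.fact_rel {n d : ℕ} (m m' : Mon n d) (i j : Fin n) (hij : i ≠ j)
    (hrel : ∀ k, m'.exp k + (if j = k then 1 else 0) = m.exp k + (if i = k then 1 else 0)) :
    m.fact * m'.exp i = m.exp j * m'.fact := by
  have h1 : ∀ k, (m.exp k).factorial * (if i = k then m'.exp i else 1)
      = (if j = k then m.exp j else 1) * (m'.exp k).factorial := by
    intro k
    have h2 := hrel k
    by_cases hik : i = k
    · subst hik
      rw [if_neg (Ne.symm hij)] at h2 ⊢
      rw [if_pos rfl] at h2 ⊢
      have : m'.exp i = m.exp i + 1 := by omega
      rw [this, Nat.factorial_succ]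
      ring
    · by_cases hjk : j = k
      · subst hjk
        rw [if_neg hik] at h2 ⊢
        rw [if_pos rfl] at h2 ⊢
        have : m.exp j = m'.exp j + 1 := by omega
        rw [this, Nat.factorial_succ]
        ring
      · rw [if_neg hik, if_neg hjk] at h2 ⊢
        have : m'.exp k = m.exp k := by omega
        rw [this]
        ring
  have h3 := Finset.prod_congr (s₁ := Finset.univ) rfl (fun k _ => h1 k)
  rw [Finset.prod_mul_distrib, Finset.prod_mul_distrib, Finset.prod_ite_eq, Finset.prod_ite_eq] at h3
  simpa [Mon.fact] using h3

theorem Mon.move_rel {n d : ℕ} (m : Mon n d) (i j : Fin n) (h : 0 < m.exp j) (k : Fin n) :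
    (m.move i j).exp k + (if j = k then 1 else 0) = m.exp k + (if i = k then 1 else 0) := by
  rw [Mon.move_apply _ _ _ h]
  by_cases hjk : j = k
  · subst hjk
    simp only [if_true]
    by_cases hij : i = j
    · subst hij; simp only [if_true]; omega
    · rw [if_neg hij, if_neg (Ne.symm hij)]; omega
  · rw [if_neg hjk, if_neg (Ne.symm hjk)]
    by_cases hik : i = k
    · subst hik; simp
    · rw [if_neg hik, if_neg (Ne.symm hik)]; simp

end Vale.Agent.P181
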